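import Mathlib

/-!
# Partial summation tools for `StMert` (P004E, helper185)
-/

set_option linter.all false

open Finset Real Filter Topology

namespace P004E.H185

/-- partial sums -/
noncomputable def S (f : ℕ → ℝ) (n : ℕ) : ℝ := ∑ k ∈ Icc 1 n, f k

/-- harmonic partial sums -/
noncomputable def T (f : ℕ → ℝ) (n : ℕ) : ℝ := ∑ k ∈ Icc 1 n, f k / k

@[simp] lemma S_zero (f : ℕ → ℝ) : S f 0 = 0 := by simp [S]
@[simp] lemma T_zero (f : ℕ → ℝ) : T f 0 = 0 := by simp [T]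

lemma S_succ (f : ℕ → ℝ) (n : ℕ) : S f (n + 1) = S f n + f (n + 1) := by
  unfold S; rw [Finset.sum_Icc_succ_top (by omega)]

lemma T_succ (f : ℕ → ℝ) (n : ℕ) : T f (n + 1) = T f n + f (n + 1) / ((n + 1 : ℕ) : ℝ) := by
  unfold T; rw [Finset.sum_Icc_succ_top (by omega)]

/-- Abel summation -/
lemma abel (f g : ℕ → ℝ) (N : ℕ) :
    ∑ n ∈ Icc 1 N, f n * g n = S f N * g (N + 1) + ∑ n ∈ Icc 1 N, S f n * (g n - g (n + 1)) := by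
  induction N with
  | zero => simp
  | succ N ih =>
    rw [Finset.sum_Icc_succ_top (by omega), Finset.sum_Icc_succ_top (by omega), ih, S_succ]
    ring

/-- Abel summation comparison for decreasing weights -/
lemma abel_compare (f g : ℕ → ℝ) (C : ℝ) (N : ℕ) (hS : ∀ n, S f n ≤ C * n)
    (hg : ∀ n, 1 ≤ n → g (n + 1) ≤ g n) (hg0 : 0 ≤ g (N + 1)) :
    ∑ n ∈ Icc 1 N, f n * g n ≤ C * ∑ n ∈ Icc 1 N, g n := by
  have h1 : ∀ M, S (fun _ => C) M = C * M := by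
    intro M; simp [S, mul_comm]
  have h2 := abel (fun _ => C) g N
  rw [abel, Finset.mul_sum, h2]
  refine add_le_add ?_ (Finset.sum_le_sum fun n hn => ?_)
  · rw [h1]; exact mul_le_mul_of_nonneg_right (hS N) hg0
  · rw [h1]
    exact mul_le_mul_of_nonneg_right (hS n) (sub_nonneg.2 (hg n (Finset.mem_Icc.1 hn).1))

/-! ### power sums -/

/-- `a ≥ 0`: `a (n+1)^{-1-a} ≤ n^{-a} - (n+1)^{-a}`. -/
lemma rpow_tele {a : ℝ} (ha : 0 < a) {n : ℕ} (hn : 1 ≤ n) :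
    a * ((n + 1 : ℕ) : ℝ) ^ (-1 - a) ≤ (n : ℝ) ^ (-a) - ((n + 1 : ℕ) : ℝ) ^ (-a) := by
  have hn0 : (0 : ℝ) < n := by exact_mod_cast hn
  have hn1 : (0 : ℝ) < ((n + 1 : ℕ) : ℝ) := by positivity
  have e1 : (n : ℝ) ^ (-a) = ((n + 1 : ℕ) : ℝ) ^ (-a) * ((n : ℝ) / ((n + 1 : ℕ) : ℝ)) ^ (-a) := by
    rw [Real.div_rpow hn0.le hn1.le]; field_simp
  have e2 : 1 + a / ((n + 1 : ℕ) : ℝ) ≤ ((n : ℝ) / ((n + 1 : ℕ) : ℝ)) ^ (-a) := by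
    have e3 : (n : ℝ) / ((n + 1 : ℕ) : ℝ) = 1 - 1 / ((n + 1 : ℕ) : ℝ) := by
      field_simp; push_cast; ring
    have e4 : (0:ℝ) < (n : ℝ) / ((n + 1 : ℕ) : ℝ) := by positivity
    rw [Real.rpow_def_of_pos e4]
    have e5 : Real.log ((n : ℝ) / ((n + 1 : ℕ) : ℝ)) ≤ - (1 / ((n + 1 : ℕ) : ℝ)) := by
      have := Real.log_le_sub_one_of_pos e4
      rw [e3] at this ⊢
      linarith
    have e6 : a / ((n + 1 : ℕ) : ℝ) ≤ Real.log ((n : ℝ) / ((n + 1 : ℕ) : ℝ)) * (-a) := by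
      have : a * Real.log ((n : ℝ) / ((n + 1 : ℕ) : ℝ)) ≤ a * (- (1 / ((n + 1 : ℕ) : ℝ))) :=
        mul_le_mul_of_nonneg_left e5 ha.le
      have h7 : a * (- (1 / ((n + 1 : ℕ) : ℝ))) = - (a / ((n + 1 : ℕ) : ℝ)) := by ring
      linarith
    have e7 := Real.add_one_le_exp (Real.log ((n : ℝ) / ((n + 1 : ℕ) : ℝ)) * (-a))
    linarith
  have e8 : ((n + 1 : ℕ) : ℝ) ^ (-1 - a) = ((n + 1 : ℕ) : ℝ) ^ (-a) * (1 / ((n + 1 : ℕ) : ℝ)) := by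
    rw [show -1 - a = -a + (-1) by ring, Real.rpow_add hn1, Real.rpow_neg_one, one_div]
  rw [e1, e8]
  have e9 : 0 < ((n + 1 : ℕ) : ℝ) ^ (-a) := Real.rpow_pos_of_pos hn1 _
  have := mul_le_mul_of_nonneg_left e2 e9.le
  have h10 : ((n + 1 : ℕ) : ℝ) ^ (-a) * (1 + a / ((n + 1 : ℕ) : ℝ)) =
    ((n + 1 : ℕ) : ℝ) ^ (-a) + a * (((n + 1 : ℕ) : ℝ) ^ (-a) * (1 / ((n + 1 : ℕ) : ℝ))) := by ring
  linarith

/-- `0 ≤ n^{-a} - (n+1)^{-a} ≤ a n^{-1-a}` -/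
lemma rpow_tele_upper {a : ℝ} (ha : 0 ≤ a) {n : ℕ} (hn : 1 ≤ n) :
    (n : ℝ) ^ (-a) - ((n + 1 : ℕ) : ℝ) ^ (-a) ≤ a * (n : ℝ) ^ (-1 - a) := by
  have hn0 : (0 : ℝ) < n := by exact_mod_cast hn
  have hn1 : (0 : ℝ) < ((n + 1 : ℕ) : ℝ) := by positivity
  have e1 : ((n + 1 : ℕ) : ℝ) ^ (-a) = (n : ℝ) ^ (-a) * (((n + 1 : ℕ) : ℝ) / n) ^ (-a) := by
    rw [Real.div_rpow hn1.le hn0.le]; field_simp
  have e3 : ((n + 1 : ℕ) : ℝ) / n = 1 + 1 / (n : ℝ) := by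
    field_simp; push_cast; ring
  have e4 : (0:ℝ) < ((n + 1 : ℕ) : ℝ) / n := by positivity
  have e2 : 1 - a / (n : ℝ) ≤ (((n + 1 : ℕ) : ℝ) / n) ^ (-a) := by
    rw [Real.rpow_def_of_pos e4]
    have e5 : Real.log (((n + 1 : ℕ) : ℝ) / n) ≤ 1 / (n : ℝ) := by
      have := Real.log_le_sub_one_of_pos e4
      rw [e3] at this ⊢
      linarith
    have e6 : - (a / (n : ℝ)) ≤ Real.log (((n + 1 : ℕ) : ℝ) / n) * (-a) := by
      have := mul_le_mul_of_nonneg_left e5 ha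
      have h7 : a * (1 / (n : ℝ)) = a / n := by ring
      linarith
    have e7 := Real.add_one_le_exp (Real.log (((n + 1 : ℕ) : ℝ) / n) * (-a))
    linarith
  have e8 : (n : ℝ) ^ (-1 - a) = (n : ℝ) ^ (-a) * (1 / (n : ℝ)) := by
    rw [show -1 - a = -a + (-1) by ring, Real.rpow_add hn0, Real.rpow_neg_one, one_div]
  rw [e1, e8]
  have e9 : 0 < (n : ℝ) ^ (-a) := Real.rpow_pos_of_pos hn0 _
  have := mul_le_mul_of_nonneg_left e2 e9.le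
  have h10 : (n : ℝ) ^ (-a) * (1 - a / (n : ℝ)) =
    (n : ℝ) ^ (-a) - a * ((n : ℝ) ^ (-a) * (1 / (n : ℝ))) := by ring
  linarith

/-- `a > 0`: `∑_{M < n ≤ N} n^{-1-a} ≤ M^{-a}/a`. -/
lemma sum_rpow_Ioc {a : ℝ} (ha : 0 < a) {M N : ℕ} (hM : 1 ≤ M) (hMN : M ≤ N) :
    ∑ n ∈ Ioc M N, (n : ℝ) ^ (-1 - a) ≤ ((M : ℝ) ^ (-a) - (N : ℝ) ^ (-a)) / a := by
  induction N, hMN using Nat.le_induction with
  | base => simp
  | succ N hN ih =>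
    rw [Finset.sum_Ioc_succ_top (by omega)]
    have h := rpow_tele ha (n := N) (by omega)
    have h2 : ((N + 1 : ℕ) : ℝ) ^ (-1 - a) ≤ ((N : ℝ) ^ (-a) - ((N + 1 : ℕ) : ℝ) ^ (-a)) / a := by
      rw [le_div_iff₀ ha]; linarith
    have h3 : ((M : ℝ) ^ (-a) - (N : ℝ) ^ (-a)) / a + ((N : ℝ) ^ (-a) - ((N + 1 : ℕ) : ℝ) ^ (-a)) / a
      = ((M : ℝ) ^ (-a) - ((N + 1 : ℕ) : ℝ) ^ (-a)) / a := by ring
    linarith

lemma sum_rpow_Icc {a : ℝ} (ha : 0 < a) (N : ℕ) :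
    ∑ n ∈ Icc 1 N, (n : ℝ) ^ (-1 - a) ≤ 1 + 1 / a := by
  rcases Nat.eq_zero_or_pos N with rfl | hN
  · simp; positivity
  · have h1 : Icc 1 N = insert 1 (Ioc 1 N) := by
      ext k; simp only [mem_Icc, mem_insert, mem_Ioc]; omega
    rw [h1, Finset.sum_insert (by simp)]
    have h2 := sum_rpow_Ioc ha le_rfl hN
    have h3 : (0:ℝ) ≤ (N : ℝ) ^ (-a) := by positivity
    have h4 : (((1 : ℕ) : ℝ) ^ (-a) - (N : ℝ) ^ (-a)) / a ≤ 1 / a := by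
      apply div_le_div_of_nonneg_right _ ha.le
      simp; exact h3
    have h5 : ((1 : ℕ) : ℝ) ^ (-1 - a) = 1 := by simp
    rw [h5]; linarith

/-- `0 < b ≤ 1`: `∑_{n ≤ N} n^{b-1} ≤ N^b / b`. -/
lemma sum_rpow_pos {b : ℝ} (hb : 0 < b) (hb1 : b ≤ 1) (N : ℕ) :
    ∑ n ∈ Icc 1 N, (n : ℝ) ^ (b - 1) ≤ (N : ℝ) ^ b / b := by
  induction N with
  | zero => simp; rw [Real.zero_rpow hb.ne']; simp
  | succ N ih =>
    rw [Finset.sum_Icc_succ_top (by omega)]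
    have hn1 : (0 : ℝ) < ((N + 1 : ℕ) : ℝ) := by positivity
    have key : b * ((N + 1 : ℕ) : ℝ) ^ (b - 1) ≤ ((N + 1 : ℕ) : ℝ) ^ b - (N : ℝ) ^ b := by
      have e1 : (N : ℝ) ^ b = ((N + 1 : ℕ) : ℝ) ^ b * ((N : ℝ) / ((N + 1 : ℕ) : ℝ)) ^ b := by
        rw [Real.div_rpow (by positivity) hn1.le]; field_simp
      have e3 : (N : ℝ) / ((N + 1 : ℕ) : ℝ) = 1 + (- (1 / ((N + 1 : ℕ) : ℝ))) := by
        field_simp; push_cast; ring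
      have e2 : ((N : ℝ) / ((N + 1 : ℕ) : ℝ)) ^ b ≤ 1 + b * (- (1 / ((N + 1 : ℕ) : ℝ))) := by
        rw [e3]
        apply rpow_one_add_le_one_add_mul_self _ hb.le hb1
        have : 1 / ((N + 1 : ℕ) : ℝ) ≤ 1 := by
          rw [div_le_one hn1]; push_cast; linarith [(Nat.cast_nonneg N : (0:ℝ) ≤ N)]
        linarith
      have e8 : ((N + 1 : ℕ) : ℝ) ^ (b - 1) = ((N + 1 : ℕ) : ℝ) ^ b * (1 / ((N + 1 : ℕ) : ℝ)) := by
        rw [sub_eq_add_neg, Real.rpow_add hn1, Real.rpow_neg_one, one_div]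
      rw [e1, e8]
      have e9 : 0 < ((N + 1 : ℕ) : ℝ) ^ b := Real.rpow_pos_of_pos hn1 _
      have := mul_le_mul_of_nonneg_left e2 e9.le
      have h10 : ((N + 1 : ℕ) : ℝ) ^ b * (1 + b * (- (1 / ((N + 1 : ℕ) : ℝ)))) =
        ((N + 1 : ℕ) : ℝ) ^ b - b * (((N + 1 : ℕ) : ℝ) ^ b * (1 / ((N + 1 : ℕ) : ℝ))) := by ring
      linarith
    have h2 : ((N + 1 : ℕ) : ℝ) ^ (b - 1) ≤ (((N + 1 : ℕ) : ℝ) ^ b - (N : ℝ) ^ b) / b := by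
      rw [le_div_iff₀ hb]; linarith
    have h3 : (N : ℝ) ^ b / b + (((N + 1 : ℕ) : ℝ) ^ b - (N : ℝ) ^ b) / b =
      ((N + 1 : ℕ) : ℝ) ^ b / b := by ring
    linarith

end P004E.H185
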