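import Vale.Agent.P004E.H185.Tconv

/-!
# Degree-two multiplicative functions: Euler product and logarithm
-/

set_option linter.all false

open Finset Real Filter Topology

namespace P004E.H185

/-- multiplicative functions with a degree two Euler product (trivial at `2`) -/
structure Deg2 (f e : ℕ → ℝ) : Prop where
  zero : f 0 = 0
  one : f 1 = 1
  mul : ∀ m n : ℕ, Nat.Coprime m n → f (m * n) = f m * f n
  rec2 : ∀ p k : ℕ, p.Prime → f (p ^ (k + 2)) = f p * f (p ^ (k + 1)) - e p * f (p ^ k)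
  fp : ∀ p : ℕ, p.Prime → |f p| ≤ 2
  ep : ∀ p : ℕ, p.Prime → |e p| ≤ 1
  f2 : f 2 = 0
  e2 : e 2 = 0
  le : ∀ n : ℕ, |f n| ≤ (n.divisors.card : ℝ)

lemma summable_dv {σ : ℝ} (hσ : 1 < σ) :
    Summable (fun n : ℕ => (n.divisors.card : ℝ) * (n : ℝ) ^ (-σ)) := by
  have h1 : LSeriesSummable (fun n => ((ArithmeticFunction.zeta n : ℕ) : ℂ)) (σ : ℂ) :=
    ArithmeticFunction.LSeriesSummable_zeta_iff.mpr (by simpa using hσ)
  have h2 := LSeriesSummable.convolution h1 h1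
  have h3 : Summable (fun n => ‖LSeries.term _ (σ : ℂ) n‖) := h2.norm
  refine h3.congr fun n => ?_
  rw [LSeries.norm_term_eq]
  rcases Nat.eq_zero_or_pos n with rfl | hn
  · simp
  · rw [if_neg hn.ne', LSeries.convolution_def]
    have h4 : ∑ p ∈ n.divisorsAntidiagonal, (((ArithmeticFunction.zeta p.1 : ℕ) : ℂ) *
        ((ArithmeticFunction.zeta p.2 : ℕ) : ℂ)) = (n.divisors.card : ℂ) := by
      rw [Nat.sum_divisorsAntidiagonal (f := fun a b => (((ArithmeticFunction.zeta a : ℕ) : ℂ) *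
        ((ArithmeticFunction.zeta b : ℕ) : ℂ)))]
      rw [Finset.card_eq_sum_ones, Nat.cast_sum]
      apply Finset.sum_congr rfl
      intro d hd
      have h5 := Nat.mem_divisors.1 hd
      have h6 : d ≠ 0 := by rintro rfl; simp at h5
      have h7 : n / d ≠ 0 := by
        have := Nat.div_pos (Nat.le_of_dvd hn h5.1) (Nat.pos_of_ne_zero h6)
        omega
      simp [h6, h7]
    simp only []
    rw [h4]
    simp only [Complex.ofReal_re, Complex.norm_natCast]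
    rw [Real.rpow_neg (by positivity), div_eq_mul_inv]

lemma aux_sq {Y X : ℝ} (hY0 : 0 ≤ Y) (h1 : Y ≤ 7 / 3 * X) (h2 : Y ≤ 7 / 9) (hX : 0 ≤ X) :
    Y ^ (1 + 1) / (1 - Y) ≤ 25 * X ^ 2 := by
  rw [div_le_iff₀ (by linarith)]
  have h5 : Y ^ (1 + 1) ≤ (7 / 3 * X) ^ 2 := pow_le_pow_left₀ hY0 h1 2
  have h8 : (7 / 3 * X) ^ 2 = 49 / 9 * X ^ 2 := by ring
  have h7 : 25 * X ^ 2 * (2 / 9) ≤ 25 * X ^ 2 * (1 - Y) :=
    mul_le_mul_of_nonneg_left (by linarith) (by positivity)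
  have h9 : 0 ≤ X ^ 2 := sq_nonneg _
  have h10 : 25 * X ^ 2 * (2 / 9) = 50 / 9 * X ^ 2 := by ring
  rw [h10] at h7
  rw [h8] at h5
  calc Y ^ (1 + 1) ≤ 49 / 9 * X ^ 2 := h5
    _ ≤ 50 / 9 * X ^ 2 := mul_le_mul_of_nonneg_right (by norm_num) h9
    _ ≤ _ := h7

namespace Deg2

variable {f e : ℕ → ℝ} (h : Deg2 f e)
include h

lemma summable_abs {σ : ℝ} (hσ : 1 < σ) : Summable (fun n : ℕ => ‖f n * (n : ℝ) ^ (-σ)‖) := by
  refine Summable.of_nonneg_of_le (fun n => norm_nonneg _) (fun n => ?_) (summable_dv hσ)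
  rw [norm_mul, Real.norm_eq_abs, Real.norm_eq_abs, abs_of_nonneg (a := (n : ℝ) ^ (-σ)) (by positivity)]
  exact mul_le_mul_of_nonneg_right (h.le n) (by positivity)

lemma local_eq {p : ℕ} (hp : p.Prime) {X : ℝ} (hs : Summable (fun k : ℕ => f (p ^ k) * X ^ k)) :
    (∑' k : ℕ, f (p ^ k) * X ^ k) * (1 - (f p * X - e p * X ^ 2)) = 1 := by
  set a : ℕ → ℝ := fun k => f (p ^ k) * X ^ k with ha
  have a0 : a 0 = 1 := by simp [ha, h.one]
  have a1 : a 1 = f p * X := by simp [ha]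
  have a2 : ∀ k, a (k + 2) = f p * X * a (k + 1) - e p * X ^ 2 * a k := by
    intro k
    simp only [ha]
    rw [h.rec2 p k hp]; ring
  have s1 : Summable (fun k => a (k + 1)) := (summable_nat_add_iff 1).2 hs
  have s2 : Summable (fun k => a (k + 2)) := (summable_nat_add_iff 2).2 hs
  have t1 : ∑' k, a k = a 0 + ∑' k, a (k + 1) := hs.tsum_eq_zero_add
  have t2 : ∑' k, a (k + 1) = a 1 + ∑' k, a (k + 2) := by
    have := s1.tsum_eq_zero_add; simpa using this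
  have t3 : ∑' k, a (k + 2) = f p * X * ∑' k, a (k + 1) - e p * X ^ 2 * ∑' k, a k := by
    rw [← tsum_mul_left, ← tsum_mul_left, ← Summable.tsum_sub (s1.mul_left _) (hs.mul_left _)]
    exact tsum_congr a2
  have t4 : ∑' k, a (k + 1) = ∑' k, a k - 1 := by rw [t1, a0]; ring
  rw [t4] at t2 t3
  rw [t3, a1] at t2
  linear_combination t2

/-- the local variable -/
noncomputable def y (f e : ℕ → ℝ) (σ : ℝ) (p : ℕ) : ℝ :=
  f p * (p : ℝ) ^ (-σ) - e p * ((p : ℝ) ^ (-σ)) ^ 2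

lemma X_le {σ : ℝ} (hσ : 1 < σ) {p : ℕ} (hp3 : 3 ≤ p) : (p : ℝ) ^ (-σ) ≤ 1 / 3 := by
  have hp0 : (3 : ℝ) ≤ p := by exact_mod_cast hp3
  calc (p : ℝ) ^ (-σ) ≤ (p : ℝ) ^ (-1 : ℝ) :=
        Real.rpow_le_rpow_of_exponent_le (by linarith) (by linarith)
    _ = 1 / p := by rw [Real.rpow_neg_one, one_div]
    _ ≤ 1 / 3 := one_div_le_one_div_of_le (by norm_num) hp0

lemma y_abs {σ : ℝ} (hσ : 1 < σ) {p : ℕ} (hp : p.Prime) :
    |y f e σ p| ≤ 7 / 3 * (p : ℝ) ^ (-σ) ∧ |y f e σ p| ≤ 7 / 9 := by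
  have hX0 : 0 ≤ (p : ℝ) ^ (-σ) := by positivity
  rcases hp.eq_two_or_odd with rfl | hodd
  · have : y f e σ 2 = 0 := by simp [y, h.f2, h.e2]
    rw [this]; simp only [abs_zero]
    exact ⟨by positivity, by norm_num⟩
  · have hp3 : 3 ≤ p := by have := hp.two_le; omega
    have hX := X_le h hσ hp3
    have h1 : |y f e σ p| ≤ 2 * (p : ℝ) ^ (-σ) + ((p : ℝ) ^ (-σ)) ^ 2 := by
      unfold y
      have e1 := abs_sub (f p * (p : ℝ) ^ (-σ)) (e p * ((p : ℝ) ^ (-σ)) ^ 2)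
      have e2 : |f p * (p : ℝ) ^ (-σ)| ≤ 2 * (p : ℝ) ^ (-σ) := by
        rw [abs_mul, abs_of_nonneg hX0]; exact mul_le_mul_of_nonneg_right (h.fp p hp) hX0
      have e3 : |e p * ((p : ℝ) ^ (-σ)) ^ 2| ≤ 1 * ((p : ℝ) ^ (-σ)) ^ 2 := by
        rw [abs_mul, abs_of_nonneg (a := ((p : ℝ) ^ (-σ)) ^ 2) (by positivity)]
        exact mul_le_mul_of_nonneg_right (h.ep p hp) (by positivity)
      linarith
    constructor <;> nlinarith

lemma abs_log_y {σ : ℝ} (hσ : 1 < σ) {p : ℕ} (hp : p.Prime) :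
    |(-Real.log (1 - y f e σ p)) - f p * (p : ℝ) ^ (-σ)| ≤ 26 * (p : ℝ) ^ (-2 : ℝ) := by
  obtain ⟨h1, h2⟩ := y_abs h hσ hp
  have hp1 : (1 : ℝ) ≤ p := by exact_mod_cast hp.one_lt.le
  have hX0 : 0 ≤ (p : ℝ) ^ (-σ) := by positivity
  have h3 := Real.abs_log_sub_add_sum_range_le (x := y f e σ p) (by linarith) 1
  simp only [Finset.sum_range_one] at h3
  have h4 : |y f e σ p| ^ (1 + 1) / (1 - |y f e σ p|) ≤ 25 * ((p : ℝ) ^ (-σ)) ^ 2 :=
    aux_sq (abs_nonneg _) h1 h2 hX0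
  have h5 : ((p : ℝ) ^ (-σ)) ^ 2 ≤ (p : ℝ) ^ (-2 : ℝ) := by
    rw [← Real.rpow_natCast, ← Real.rpow_mul (by positivity)]
    exact Real.rpow_le_rpow_of_exponent_le hp1 (by push_cast; linarith)
  have h6 : |e p * ((p : ℝ) ^ (-σ)) ^ 2| ≤ 1 * ((p : ℝ) ^ (-σ)) ^ 2 := by
    rw [abs_mul, abs_of_nonneg (a := ((p : ℝ) ^ (-σ)) ^ 2) (by positivity)]
    exact mul_le_mul_of_nonneg_right (h.ep p hp) (by positivity)
  have h7 : (-Real.log (1 - y f e σ p)) - f p * (p : ℝ) ^ (-σ) =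
      - (y f e σ p ^ (0 + 1) / (((0 : ℕ) : ℝ) + 1) + Real.log (1 - y f e σ p)) -
        e p * ((p : ℝ) ^ (-σ)) ^ 2 := by
    unfold y
    simp only [zero_add, pow_one, Nat.cast_zero, div_one]
    ring
  rw [h7]
  have h8 := abs_sub (- (y f e σ p ^ (0 + 1) / (((0 : ℕ) : ℝ) + 1) + Real.log (1 - y f e σ p)))
    (e p * ((p : ℝ) ^ (-σ)) ^ 2)
  rw [abs_neg] at h8
  linarith

/-- The value of the Dirichlet series -/
noncomputable def L (f : ℕ → ℝ) (σ : ℝ) : ℝ := ∑' n : ℕ, f n * (n : ℝ) ^ (-σ)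

/-- The prime sum -/
noncomputable def P (f : ℕ → ℝ) (σ : ℝ) : ℝ := ∑' p : Nat.Primes, f p * ((p : ℕ) : ℝ) ^ (-σ)

/-- the error constant -/
noncomputable def K0 : ℝ := ∑' p : Nat.Primes, 26 * ((p : ℕ) : ℝ) ^ (-2 : ℝ)

lemma summable_P {σ : ℝ} (hσ : 1 < σ) :
    Summable (fun p : Nat.Primes => f p * ((p : ℕ) : ℝ) ^ (-σ)) := by
  have h1 : Summable (fun p : Nat.Primes => 2 * ((p : ℕ) : ℝ) ^ (-σ)) :=
    (Nat.Primes.summable_rpow.2 (by linarith)).mul_left 2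
  refine Summable.of_norm_bounded h1 (fun p => ?_)
  rw [norm_mul, Real.norm_eq_abs, Real.norm_eq_abs,
    abs_of_nonneg (a := ((p : ℕ) : ℝ) ^ (-σ)) (by positivity)]
  exact mul_le_mul_of_nonneg_right (h.fp p p.2) (by positivity)

theorem log_L {σ : ℝ} (hσ : 1 < σ) :
    ∃ l : ℝ, L f σ = Real.exp l ∧ |l - P f σ| ≤ K0 := by
  set F : ℕ → ℝ := fun n => f n * (n : ℝ) ^ (-σ) with hF
  have hF1 : F 1 = 1 := by simp [hF, h.one]
  have hFmul : ∀ {m n : ℕ}, Nat.Coprime m n → F (m * n) = F m * F n := by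
    intro m n hmn
    simp only [hF]
    rw [h.mul m n hmn, Nat.cast_mul, Real.mul_rpow (by positivity) (by positivity)]; ring
  have hF0 : F 0 = 0 := by simp [hF, h.zero]
  have hsum : Summable (fun n => ‖F n‖) := summable_abs h hσ
  have hprod := EulerProduct.eulerProduct_hasProd hF1 hFmul hsum hF0
  have hloc : ∀ p : Nat.Primes, ∑' k, F ((p : ℕ) ^ k) = (1 - y f e σ p)⁻¹ := by
    intro p
    have hp := p.2
    have hpow : ∀ k : ℕ, F ((p : ℕ) ^ k) = f ((p : ℕ) ^ k) * (((p : ℕ) : ℝ) ^ (-σ)) ^ k := by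
      intro k
      simp only [hF]
      congr 1
      rw [Nat.cast_pow, ← Real.rpow_natCast, ← Real.rpow_natCast, ← Real.rpow_mul (by positivity),
        ← Real.rpow_mul (by positivity), mul_comm]
    have hs : Summable (fun k : ℕ => f ((p : ℕ) ^ k) * (((p : ℕ) : ℝ) ^ (-σ)) ^ k) := by
      have h1 : Summable (fun k : ℕ => F ((p : ℕ) ^ k)) :=
        hsum.of_norm.comp_injective (Nat.pow_right_injective hp.two_le)
      exact h1.congr hpow
    have h2 := local_eq h hp hs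
    rw [tsum_congr hpow]
    exact eq_inv_of_mul_eq_one_left h2
  have hpos : ∀ p : Nat.Primes, 0 < (1 - y f e σ p)⁻¹ := by
    intro p
    have := (y_abs h hσ p.2).2
    have := abs_le.1 this
    apply inv_pos.2; linarith [this.2]
  have hlog : ∀ p : Nat.Primes, Real.log ((1 - y f e σ p)⁻¹) = -Real.log (1 - y f e σ p) :=
    fun p => Real.log_inv _
  have hs2 : Summable (fun p : Nat.Primes => 26 * ((p : ℕ) : ℝ) ^ (-2 : ℝ)) :=
    (Nat.Primes.summable_rpow.2 (by norm_num)).mul_left 26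
  have hsd : Summable (fun p : Nat.Primes => Real.log ((1 - y f e σ p)⁻¹) - f p * ((p : ℕ) : ℝ) ^ (-σ)) := by
    refine Summable.of_norm_bounded hs2 (fun p => ?_)
    rw [hlog, Real.norm_eq_abs]
    exact abs_log_y h hσ p.2
  have hsl : Summable (fun p : Nat.Primes => Real.log ((1 - y f e σ p)⁻¹)) := by
    have := hsd.add (summable_P h hσ)
    exact this.congr fun p => by ring
  refine ⟨∑' p : Nat.Primes, Real.log ((1 - y f e σ p)⁻¹), ?_, ?_⟩
  · rw [Real.rexp_tsum_eq_tprod hpos hsl]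
    have h1 := hprod.tprod_eq
    unfold L
    rw [← h1]
    exact tprod_congr hloc
  · unfold P K0
    rw [← Summable.tsum_sub hsl (summable_P h hσ), ← Real.norm_eq_abs]
    apply tsum_of_norm_bounded hs2.hasSum
    intro p
    rw [hlog, Real.norm_eq_abs]
    exact abs_log_y h hσ p.2

end Deg2

end P004E.H185
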