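import Vale.Agent.P004G.H293.Blk

/-!
# Expansion of a polynomial in `∑ b p ω_p` as a Dirichlet polynomial
-/

set_option linter.all false

open Finset Real

namespace P004E.H185

open P004G.H293 (ffx ffx_mul ffx_one ffx_prime)

variable [P004G.Crv]

/-- `F` is a Dirichlet polynomial supported on the `S`-smooth numbers `≤ X`, with `ℓ¹`-norm `≤ N` -/
def IsDP (S : Finset ℕ) (X N : ℝ) (F : (ℕ → ℝ) → ℝ) : Prop :=
  ∃ (A : Finset ℕ) (c : ℕ → ℝ), (∀ ω, ∑ a ∈ A, c a * ffx ω a = F ω) ∧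
    (∀ a ∈ A, a ≠ 0 ∧ (∀ p, p.Prime → p ∣ a → p ∈ S) ∧ (a : ℝ) ≤ X) ∧ ∑ a ∈ A, |c a| ≤ N

namespace IsDP

variable {S : Finset ℕ}

lemma congr {X N : ℝ} {F G : (ℕ → ℝ) → ℝ} (h : IsDP S X N F) (hFG : ∀ ω, F ω = G ω) :
    IsDP S X N G := by
  obtain ⟨A, c, h1, h2, h3⟩ := h
  exact ⟨A, c, fun ω => (h1 ω).trans (hFG ω), h2, h3⟩

lemma mono {X X' N N' : ℝ} {F : (ℕ → ℝ) → ℝ} (h : IsDP S X N F) (hX : X ≤ X') (hN : N ≤ N') :
    IsDP S X' N' F := by
  obtain ⟨A, c, h1, h2, h3⟩ := h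
  exact ⟨A, c, h1, fun a ha => ⟨(h2 a ha).1, (h2 a ha).2.1, (h2 a ha).2.2.trans hX⟩, h3.trans hN⟩

lemma const {X : ℝ} (hX : 1 ≤ X) (k : ℝ) : IsDP S X |k| (fun _ => k) := by
  refine ⟨{1}, fun _ => k, fun ω => ?_, fun a ha => ?_, ?_⟩
  · rw [Finset.sum_singleton, ffx_one, mul_one]
  · rw [Finset.mem_singleton] at ha
    subst ha
    refine ⟨one_ne_zero, fun p hp h => ?_, by simpa using hX⟩
    exact absurd (Nat.dvd_one.1 h) hp.ne_one
  · rw [Finset.sum_singleton]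

lemma add {X N N' : ℝ} {F G : (ℕ → ℝ) → ℝ} (hF : IsDP S X N F) (hG : IsDP S X N' G) :
    IsDP S X (N + N') (fun ω => F ω + G ω) := by
  classical
  obtain ⟨A, c, h1, h2, h3⟩ := hF
  obtain ⟨A', c', h1', h2', h3'⟩ := hG
  have e1 : ∀ (g : ℕ → ℝ), ∑ a ∈ A ∪ A', (if a ∈ A then c a else 0) * g a = ∑ a ∈ A, c a * g a := by
    intro g
    rw [← Finset.sum_subset (Finset.subset_union_left (s₁ := A) (s₂ := A'))]
    · exact Finset.sum_congr rfl fun a ha => by rw [if_pos ha]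
    · intro a _ ha; rw [if_neg ha, zero_mul]
  have e2 : ∀ (g : ℕ → ℝ), ∑ a ∈ A ∪ A', (if a ∈ A' then c' a else 0) * g a = ∑ a ∈ A', c' a * g a := by
    intro g
    rw [← Finset.sum_subset (Finset.subset_union_right (s₁ := A) (s₂ := A'))]
    · exact Finset.sum_congr rfl fun a ha => by rw [if_pos ha]
    · intro a _ ha; rw [if_neg ha, zero_mul]
  refine ⟨A ∪ A', fun a => (if a ∈ A then c a else 0) + (if a ∈ A' then c' a else 0),
    fun ω => ?_, fun a ha => ?_, ?_⟩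
  · have : ∀ a ∈ A ∪ A', ((if a ∈ A then c a else 0) + (if a ∈ A' then c' a else 0)) * ffx ω a =
        (if a ∈ A then c a else 0) * ffx ω a + (if a ∈ A' then c' a else 0) * ffx ω a :=
      fun a _ => by ring
    rw [Finset.sum_congr rfl this, Finset.sum_add_distrib, e1, e2, h1, h1']
  · rcases Finset.mem_union.1 ha with h | h
    · exact h2 a h
    · exact h2' a h
  · calc ∑ a ∈ A ∪ A', |(if a ∈ A then c a else 0) + (if a ∈ A' then c' a else 0)|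
        ≤ ∑ a ∈ A ∪ A', (|if a ∈ A then c a else 0| + |if a ∈ A' then c' a else 0|) :=
          Finset.sum_le_sum fun a _ => abs_add_le _ _
      _ = ∑ a ∈ A, |c a| + ∑ a ∈ A', |c' a| := by
          rw [Finset.sum_add_distrib]
          congr 1
          · rw [← Finset.sum_subset (Finset.subset_union_left (s₁ := A) (s₂ := A'))]
            · exact Finset.sum_congr rfl fun a ha => by rw [if_pos ha]
            · intro a _ ha; rw [if_neg ha, abs_zero]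
          · rw [← Finset.sum_subset (Finset.subset_union_right (s₁ := A) (s₂ := A'))]
            · exact Finset.sum_congr rfl fun a ha => by rw [if_pos ha]
            · intro a _ ha; rw [if_neg ha, abs_zero]
      _ ≤ N + N' := add_le_add h3 h3'

lemma mul {X X' N N' : ℝ} {F G : (ℕ → ℝ) → ℝ} (hF : IsDP S X N F) (hG : IsDP S X' N' G)
    (hX : 0 ≤ X) (hN : 0 ≤ N) : IsDP S (X * X') (N * N') (fun ω => F ω * G ω) := by
  classical
  obtain ⟨A, c, h1, h2, h3⟩ := hF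
  obtain ⟨A', c', h1', h2', h3'⟩ := hG
  have hmap : ∀ x ∈ A ×ˢ A', x.1 * x.2 ∈ (A ×ˢ A').image (fun x : ℕ × ℕ => x.1 * x.2) :=
    fun x hx => Finset.mem_image_of_mem _ hx
  refine ⟨(A ×ˢ A').image (fun x => x.1 * x.2),
    fun n => ∑ x ∈ (A ×ˢ A').filter (fun x => x.1 * x.2 = n), c x.1 * c' x.2,
    fun ω => ?_, fun a ha => ?_, ?_⟩
  · have e1 : ∀ n ∈ (A ×ˢ A').image (fun x : ℕ × ℕ => x.1 * x.2),
        (∑ x ∈ (A ×ˢ A').filter (fun x => x.1 * x.2 = n), c x.1 * c' x.2) * ffx ω n =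
        ∑ x ∈ (A ×ˢ A').filter (fun x => x.1 * x.2 = n), (c x.1 * ffx ω x.1) * (c' x.2 * ffx ω x.2) := by
      intro n _
      rw [Finset.sum_mul]
      apply Finset.sum_congr rfl
      intro x hx
      obtain ⟨hx1, hx2⟩ := Finset.mem_filter.1 hx
      obtain ⟨hx3, hx4⟩ := Finset.mem_product.1 hx1
      rw [← hx2, ffx_mul ω (h2 _ hx3).1 (h2' _ hx4).1]
      ring
    rw [Finset.sum_congr rfl e1, Finset.sum_fiberwise_of_maps_to hmap, Finset.sum_product]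
    show _ = F ω * G ω
    rw [← h1 ω, ← h1' ω, Finset.sum_mul_sum]
  · obtain ⟨x, hx, rfl⟩ := Finset.mem_image.1 ha
    obtain ⟨hx3, hx4⟩ := Finset.mem_product.1 hx
    refine ⟨mul_ne_zero (h2 _ hx3).1 (h2' _ hx4).1, fun p hp hpd => ?_, ?_⟩
    · rcases (Nat.Prime.dvd_mul hp).1 hpd with h | h
      · exact (h2 _ hx3).2.1 p hp h
      · exact (h2' _ hx4).2.1 p hp h
    · push_cast
      exact mul_le_mul (h2 _ hx3).2.2 (h2' _ hx4).2.2 (Nat.cast_nonneg _) hX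
  · calc ∑ n ∈ (A ×ˢ A').image (fun x : ℕ × ℕ => x.1 * x.2),
          |∑ x ∈ (A ×ˢ A').filter (fun x => x.1 * x.2 = n), c x.1 * c' x.2|
        ≤ ∑ n ∈ (A ×ˢ A').image (fun x : ℕ × ℕ => x.1 * x.2),
          ∑ x ∈ (A ×ˢ A').filter (fun x => x.1 * x.2 = n), |c x.1| * |c' x.2| := by
          apply Finset.sum_le_sum
          intro n _
          refine (Finset.abs_sum_le_sum_abs _ _).trans (Finset.sum_le_sum fun x _ => ?_)
          rw [abs_mul]
      _ = (∑ a ∈ A, |c a|) * ∑ a ∈ A', |c' a| := by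
          rw [Finset.sum_fiberwise_of_maps_to hmap, Finset.sum_product, Finset.sum_mul_sum]
      _ ≤ N * N' := mul_le_mul h3 h3' (Finset.sum_nonneg fun _ _ => abs_nonneg _) hN

/-- the linear form -/
lemma linear (hS : ∀ p ∈ S, p.Prime) {B : ℝ} (hSB : ∀ p ∈ S, (p : ℝ) ≤ B) (b : ℕ → ℝ) :
    IsDP S B (∑ p ∈ S, |b p|) (fun ω => ∑ p ∈ S, b p * ω p) := by
  refine ⟨S, b, fun ω => ?_, fun a ha => ?_, le_rfl⟩
  · exact Finset.sum_congr rfl fun p hp => by rw [ffx_prime ω (hS p hp)]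
  · refine ⟨(hS a ha).ne_zero, fun p hp hpd => ?_, hSB a ha⟩
    rw [(Nat.prime_dvd_prime_iff_eq hp (hS a ha)).1 hpd]
    exact ha

lemma pow {X N : ℝ} {F : (ℕ → ℝ) → ℝ} (hF : IsDP S X N F) (hX : 0 ≤ X) (hN : 0 ≤ N) (n : ℕ) :
    IsDP S (X ^ n) (N ^ n) (fun ω => F ω ^ n) := by
  induction n with
  | zero =>
    simp only [pow_zero]
    simpa using const (S := S) (le_refl (1 : ℝ)) 1
  | succ n ih =>
    refine ((ih.mul hF (by positivity) (by positivity)).mono ?_ ?_).congr fun ω => ?_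
    · rw [pow_succ]
    · rw [pow_succ]
    · rw [pow_succ]

lemma sum {ι : Type*} (T : Finset ι) {X : ℝ} (hX : 1 ≤ X) {N : ι → ℝ} {F : ι → (ℕ → ℝ) → ℝ}
    (hF : ∀ i ∈ T, IsDP S X (N i) (F i)) : IsDP S X (∑ i ∈ T, N i) (fun ω => ∑ i ∈ T, F i ω) := by
  classical
  induction T using Finset.induction_on with
  | empty =>
    simp only [Finset.sum_empty]
    simpa using const (S := S) hX 0
  | insert i T hi ih =>
    simp only [Finset.sum_insert hi]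
    exact (hF i (Finset.mem_insert_self i T)).add
      (ih fun j hj => hF j (Finset.mem_insert_of_mem hj))

end IsDP

/-- **Expansion** of `κ Q(∑ b p ω_p)`. -/
theorem expand {S : Finset ℕ} (hS : ∀ p ∈ S, p.Prime) {B : ℝ} (hB : 1 ≤ B)
    (hSB : ∀ p ∈ S, (p : ℝ) ≤ B) (b : ℕ → ℝ) (Q : Polynomial ℝ) (κ : ℝ) :
    ∃ (A : Finset ℕ) (c : ℕ → ℝ), (∀ ω, ∑ a ∈ A, c a * ffx ω a = κ * Q.eval (∑ p ∈ S, b p * ω p)) ∧
      (∀ a ∈ A, a ≠ 0 ∧ (∀ p, p.Prime → p ∣ a → p ∈ S) ∧ (a : ℝ) ≤ B ^ Q.natDegree) ∧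
      ∑ a ∈ A, |c a| ≤
        |κ| * ∑ n ∈ range (Q.natDegree + 1), |Q.coeff n| * (∑ p ∈ S, |b p|) ^ n := by
  have hB0 : 0 ≤ B := by linarith
  have hN0 : 0 ≤ ∑ p ∈ S, |b p| := Finset.sum_nonneg fun _ _ => abs_nonneg _
  have hX1 : 1 ≤ B ^ Q.natDegree := one_le_pow₀ hB
  have h1 := IsDP.linear hS hSB b
  have h2 : IsDP S (B ^ Q.natDegree) (∑ n ∈ range (Q.natDegree + 1), |Q.coeff n| * (∑ p ∈ S, |b p|) ^ n)
      (fun ω => ∑ n ∈ range (Q.natDegree + 1), Q.coeff n * (∑ p ∈ S, b p * ω p) ^ n) := by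
    apply IsDP.sum _ hX1
    intro n hn
    have h3 := h1.pow hB0 hN0 n
    have h4 := (IsDP.const (S := S) (le_refl (1 : ℝ)) (Q.coeff n)).mul h3 zero_le_one (abs_nonneg _)
    refine h4.mono ?_ le_rfl
    rw [one_mul]
    exact pow_le_pow_right₀ hB (by have := Finset.mem_range.1 hn; omega)
  have h3 := (IsDP.const (S := S) (le_refl (1 : ℝ)) κ).mul h2 zero_le_one (abs_nonneg _)
  have h4 : IsDP S (B ^ Q.natDegree)
      (|κ| * ∑ n ∈ range (Q.natDegree + 1), |Q.coeff n| * (∑ p ∈ S, |b p|) ^ n)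
      (fun ω => κ * Q.eval (∑ p ∈ S, b p * ω p)) := by
    refine (h3.mono (by rw [one_mul]) le_rfl).congr fun ω => ?_
    rw [Polynomial.eval_eq_sum_range]
  exact h4

end P004E.H185
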