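import Vale.Agent.P004E.Iface
import Vale.Agent.P004E.H185.Mer

/-!
# Mertens' first theorem over the good primes
-/

set_option linter.all false

open Finset Real Filter Topology

namespace P004E.H185

open P004G

variable [Crv]

open scoped Classical in
lemma gp_diff (φ : ℕ → ℝ) (x : ℝ) :
    |∑ p ∈ gp x, φ p - ∑ p ∈ Mer.pr ⌊x⌋₊, φ p| ≤ ∑ p ∈ bd.primeFactors, |φ p| := by
  have h1 : Mer.pr ⌊x⌋₊ = gp x ∪ (Mer.pr ⌊x⌋₊).filter (fun p => p ∣ bd) := by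
    ext p
    unfold gp
    simp only [mem_union, mem_filter, Mer.mem_pr, mem_range]
    constructor
    · rintro ⟨h1, h2⟩
      by_cases h3 : p ∣ bd
      · exact Or.inr ⟨⟨h1, h2⟩, h3⟩
      · exact Or.inl ⟨by omega, h1, h3⟩
    · rintro (⟨h1, h2, h3⟩ | ⟨⟨h1, h2⟩, h3⟩)
      · exact ⟨h2, by omega⟩
      · exact ⟨h1, h2⟩
  have h2 : Disjoint (gp x) ((Mer.pr ⌊x⌋₊).filter (fun p => p ∣ bd)) := by
    rw [Finset.disjoint_left]
    intro p hp1 hp2
    unfold gp at hp1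
    exact (Finset.mem_filter.1 hp1).2.2 (Finset.mem_filter.1 hp2).2
  have h3 : ∑ p ∈ Mer.pr ⌊x⌋₊, φ p =
      ∑ p ∈ gp x, φ p + ∑ p ∈ (Mer.pr ⌊x⌋₊).filter (fun p => p ∣ bd), φ p := by
    conv_lhs => rw [h1]
    exact Finset.sum_union h2
  rw [h3, sub_add_cancel_left, abs_neg]
  refine (Finset.abs_sum_le_sum_abs _ _).trans ?_
  apply Finset.sum_le_sum_of_subset_of_nonneg
  · intro p hp
    obtain ⟨hp1, hp2⟩ := Finset.mem_filter.1 hp
    exact Nat.mem_primeFactors.2 ⟨(Mer.mem_pr.1 hp1).1, hp2, Crv.bd_ne⟩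
  · intro i _ _; exact abs_nonneg _

end P004E.H185

namespace P004E

open P004G H185

variable [Crv]

/-- Mertens over the good primes (this is `StMert1`, unfolded). -/
theorem mert1 : ∃ C : ℝ, 1 ≤ C ∧ ∀ x : ℝ, 1 ≤ x →
    |∑ p ∈ gp x, Real.log p / p - Real.log x| ≤ C := by
  obtain ⟨C, hC, h⟩ := Mer.exists_bound_S
  set K : ℝ := ∑ p ∈ bd.primeFactors, |Real.log p / p| with hK
  have hK0 : 0 ≤ K := Finset.sum_nonneg fun _ _ => abs_nonneg _
  refine ⟨C + K + 1, by linarith, fun x hx => ?_⟩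
  have h1 := h x hx
  rw [Mer.sum_cLog] at h1
  have h2 := gp_diff (fun p => Real.log p / p) x
  have h3 := abs_add_le (∑ p ∈ gp x, Real.log p / p - ∑ p ∈ Mer.pr ⌊x⌋₊, Real.log p / p)
    (∑ p ∈ Mer.pr ⌊x⌋₊, Real.log p / p - Real.log x)
  rw [sub_add_sub_cancel] at h3
  linarith

end P004E
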