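import Vale.Agent.P004.H293.Rand
import Vale.Agent.P004G.H357.Bar

/-!
# Exponential moments, and the second and fourth moment of `Q(P)`
-/

set_option linter.all false

open Finset Real

namespace P004E.H185

open P004.H293

/-- the linear form -/
noncomputable def PP (S : Finset ℕ) (b : ℕ → ℝ) (ω : ℕ → ℝ) : ℝ := ∑ p ∈ S, b p * ω p

/-- its variance -/
noncomputable def VV (S : Finset ℕ) (b : ℕ → ℝ) : ℝ := ∑ p ∈ S, b p ^ 2

lemma VV_nonneg (S : Finset ℕ) (b : ℕ → ℝ) : 0 ≤ VV S b := Finset.sum_nonneg fun _ _ => sq_nonneg _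

lemma E1_exp {p : ℕ} (hp : 1 ≤ p) (a : ℝ) : E1 p (fun x => Real.exp (a * x)) ≤ Real.exp (a ^ 2 / 2) := by
  have hp' : (1 : ℝ) ≤ p := by exact_mod_cast hp
  have h1p : (1 : ℝ) / p ≤ 1 := by rw [div_le_one (by linarith)]; exact hp'
  have h0p : (0 : ℝ) ≤ 1 / p := by positivity
  have h1 : Real.cosh a ≤ Real.exp (a ^ 2 / 2) := Real.cosh_le_exp_half_sq a
  have h2 : 1 ≤ Real.cosh a := Real.one_le_cosh a
  have h3 : E1 p (fun x => Real.exp (a * x)) = 1 / p + (1 - 1 / p) * Real.cosh a := by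
    unfold E1
    rw [Real.cosh_eq]
    simp only [mul_zero, Real.exp_zero, mul_one, mul_neg]
    ring
  rw [h3]
  refine le_trans ?_ h1
  nlinarith

theorem EE_exp {S : Finset ℕ} (hS : ∀ p ∈ S, 1 ≤ p) (b : ℕ → ℝ) (t : ℝ) :
    EE S (fun ω => Real.exp (t * PP S b ω)) ≤ Real.exp (t ^ 2 * VV S b / 2) := by
  have h1 : ∀ ω : ℕ → ℝ, Real.exp (t * PP S b ω) = ∏ p ∈ S, Real.exp ((t * b p) * ω p) := by
    intro ω
    rw [← Real.exp_sum, PP, Finset.mul_sum]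
    congr 1
    exact Finset.sum_congr rfl fun p _ => by ring
  have h2 : EE S (fun ω => Real.exp (t * PP S b ω)) =
      ∏ p ∈ S, E1 p (fun x => Real.exp ((t * b p) * x)) := by
    have h4 := EE_prod S (fun (p : ℕ) (x : ℝ) => Real.exp ((t * b p) * x))
    rw [← h4]
    congr 1
    funext ω
    exact h1 ω
  rw [h2]
  have h3 : Real.exp (t ^ 2 * VV S b / 2) = ∏ p ∈ S, Real.exp ((t * b p) ^ 2 / 2) := by
    rw [← Real.exp_sum, VV, Finset.mul_sum, Finset.sum_div]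
    congr 1
    exact Finset.sum_congr rfl fun p _ => by ring
  rw [h3]
  apply Finset.prod_le_prod
  · intro p hp
    have h4 : E1 p (fun _ => (0 : ℝ)) ≤ E1 p (fun x => Real.exp (t * b p * x)) :=
      E1_mono (hS p hp) fun x _ => (Real.exp_pos _).le
    rwa [E1_const] at h4
  · intro p hp
    exact E1_exp (hS p hp) _

theorem EE_exp_abs {S : Finset ℕ} (hS : ∀ p ∈ S, 1 ≤ p) (b : ℕ → ℝ) (t : ℝ) :
    EE S (fun ω => Real.exp (t * |PP S b ω|)) ≤ 2 * Real.exp (t ^ 2 * VV S b / 2) := by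
  have h1 : EE S (fun ω => Real.exp (t * |PP S b ω|)) ≤
      EE S (fun ω => Real.exp (t * PP S b ω) + Real.exp ((-t) * PP S b ω)) := by
    apply EE_mono hS
    intro ω _
    rcases abs_cases (PP S b ω) with ⟨h, _⟩ | ⟨h, _⟩
    · rw [h]; linarith [Real.exp_pos ((-t) * PP S b ω)]
    · rw [h]
      have : t * -PP S b ω = (-t) * PP S b ω := by ring
      rw [this]; linarith [Real.exp_pos (t * PP S b ω)]
  rw [EE_add] at h1
  have h2 := EE_exp hS b t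
  have h3 := EE_exp hS b (-t)
  rw [neg_sq] at h3
  linarith

/-- the data of `exists_psi` -/
structure Psi (C η l : ℝ) (R : ℝ → ℝ) (Q : Polynomial ℝ) (Z : ℝ) : Prop where
  Z1 : 1 ≤ Z
  R01 : ∀ x, 0 ≤ R x ∧ R x ≤ 1
  near : ∀ x, |x| ≤ η * l / 16 → 1 - R x ≤ Real.exp (-l)
  up : ∀ x, Real.exp (-x) * R x ≤ C * Real.exp (η * l / 4) + Real.exp (3 * |x| - 37 * l)
  deg : (Q.natDegree : ℝ) ≤ C * Real.exp (η * l)
  coef : ∀ n, |Q.coeff n| ≤ Real.exp (C * Real.exp (η * l))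
  err : ∀ x, |Real.exp (-x) * R x - Q.eval x| ≤
    Real.exp (-(100 * Z ^ 2 * l) - 10 * l) * Real.exp (2 * (Z * |x|))

lemma exists_psi' {η : ℝ} (hη : 0 < η) (hη1 : η ≤ 1) : ∃ C : ℝ, 1 ≤ C ∧ ∀ l : ℝ, 1 ≤ l →
    ∃ (R : ℝ → ℝ) (Q : Polynomial ℝ) (Z : ℝ), Psi C η l R Q Z := by
  obtain ⟨C, hC, h⟩ := P004G.H357.exists_psi hη hη1
  refine ⟨C, hC, fun l hl => ?_⟩
  obtain ⟨R, Q, Z, h1, h2, h3, h4, h5, h6, h7⟩ := h l hl
  exact ⟨R, Q, Z, ⟨h1, h2, h3, h4, h5, h6, h7⟩⟩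

namespace Psi

variable {C η l : ℝ} {R : ℝ → ℝ} {Q : Polynomial ℝ} {Z : ℝ} (h : Psi C η l R Q Z)
include h

/-- pointwise bound for the square -/
lemma sq_le (hC : 0 ≤ C) (x : ℝ) : Q.eval x ^ 2 ≤
    4 * C ^ 2 * Real.exp (η * l / 2) + 4 * Real.exp (-(74 * l)) * Real.exp (6 * |x|) +
      2 * Real.exp (-(200 * Z ^ 2 * l) - 20 * l) * Real.exp (4 * Z * |x|) := by
  set g := Real.exp (-x) * R x with hg
  set e := Real.exp (-(100 * Z ^ 2 * l) - 10 * l) * Real.exp (2 * (Z * |x|)) with he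
  have hg0 : 0 ≤ g := mul_nonneg (Real.exp_pos _).le (h.R01 x).1
  have h1 := h.up x
  have h2 := h.err x
  have h3 : Q.eval x ^ 2 ≤ 2 * g ^ 2 + 2 * e ^ 2 := by
    have h4 : Q.eval x = g - (g - Q.eval x) := by ring
    have h5 : (g - Q.eval x) ^ 2 ≤ e ^ 2 := by
      rw [← sq_abs]; exact pow_le_pow_left₀ (abs_nonneg _) h2 2
    nlinarith [sq_nonneg (g + (g - Q.eval x))]
  have h4 : g ^ 2 ≤ 2 * (C * Real.exp (η * l / 4)) ^ 2 + 2 * (Real.exp (3 * |x| - 37 * l)) ^ 2 := by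
    have h5 : g ^ 2 ≤ (C * Real.exp (η * l / 4) + Real.exp (3 * |x| - 37 * l)) ^ 2 :=
      pow_le_pow_left₀ hg0 h1 2
    nlinarith [sq_nonneg (C * Real.exp (η * l / 4) - Real.exp (3 * |x| - 37 * l))]
  have e1 : (C * Real.exp (η * l / 4)) ^ 2 = C ^ 2 * Real.exp (η * l / 2) := by
    rw [mul_pow, ← Real.exp_nat_mul]; congr 2; push_cast; ring
  have e2 : (Real.exp (3 * |x| - 37 * l)) ^ 2 = Real.exp (-(74 * l)) * Real.exp (6 * |x|) := by
    rw [← Real.exp_nat_mul, ← Real.exp_add]; congr 1; push_cast; ring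
  have e3 : e ^ 2 = Real.exp (-(200 * Z ^ 2 * l) - 20 * l) * Real.exp (4 * Z * |x|) := by
    rw [he, mul_pow, ← Real.exp_nat_mul, ← Real.exp_nat_mul]
    congr 2
    · push_cast; ring
    · push_cast; ring
  rw [e1, e2] at h4
  rw [e3] at h3
  linarith

/-- pointwise bound for the fourth power -/
lemma four_le (x : ℝ) : Q.eval x ^ 4 ≤
    8 * Real.exp (4 * |x|) + 8 * Real.exp (-(400 * Z ^ 2 * l) - 40 * l) * Real.exp (8 * Z * |x|) := by
  set g := Real.exp (-x) * R x with hg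
  set e := Real.exp (-(100 * Z ^ 2 * l) - 10 * l) * Real.exp (2 * (Z * |x|)) with he
  have hg0 : 0 ≤ g := mul_nonneg (Real.exp_pos _).le (h.R01 x).1
  have hg1 : g ≤ Real.exp |x| := by
    calc g ≤ Real.exp (-x) * 1 := mul_le_mul_of_nonneg_left (h.R01 x).2 (Real.exp_pos _).le
      _ ≤ Real.exp |x| := by rw [mul_one]; exact Real.exp_le_exp.2 (neg_le_abs x)
  have h2 := h.err x
  have h3 : Q.eval x ^ 4 ≤ 8 * g ^ 4 + 8 * e ^ 4 := by
    have h5 : (g - Q.eval x) ^ 4 ≤ e ^ 4 := by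
      have : (g - Q.eval x) ^ 4 = |g - Q.eval x| ^ 4 := by
        rw [show (4 : ℕ) = 2 * 2 by norm_num, pow_mul, pow_mul, sq_abs]
      rw [this]; exact pow_le_pow_left₀ (abs_nonneg _) h2 4
    have h6 : Q.eval x ^ 2 ≤ 2 * g ^ 2 + 2 * (g - Q.eval x) ^ 2 := by
      nlinarith [sq_nonneg (g + (g - Q.eval x))]
    have h7 : (Q.eval x ^ 2) ^ 2 ≤ (2 * g ^ 2 + 2 * (g - Q.eval x) ^ 2) ^ 2 :=
      pow_le_pow_left₀ (sq_nonneg _) h6 2
    have h8 : (2 * g ^ 2 + 2 * (g - Q.eval x) ^ 2) ^ 2 ≤ 8 * g ^ 4 + 8 * (g - Q.eval x) ^ 4 := by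
      nlinarith [sq_nonneg (g ^ 2 - (g - Q.eval x) ^ 2)]
    have h9 : Q.eval x ^ 4 = (Q.eval x ^ 2) ^ 2 := by ring
    rw [h9]
    linarith
  have e1 : g ^ 4 ≤ Real.exp (4 * |x|) := by
    calc g ^ 4 ≤ Real.exp |x| ^ 4 := pow_le_pow_left₀ hg0 hg1 4
      _ = _ := by rw [← Real.exp_nat_mul]; norm_num
  have e3 : e ^ 4 = Real.exp (-(400 * Z ^ 2 * l) - 40 * l) * Real.exp (8 * Z * |x|) := by
    rw [he, mul_pow, ← Real.exp_nat_mul, ← Real.exp_nat_mul]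
    congr 2
    · push_cast; ring
    · push_cast; ring
  rw [e3] at h3
  linarith

/-- second moment -/
theorem two {S : Finset ℕ} (hS : ∀ p ∈ S, 1 ≤ p) (b : ℕ → ℝ) (hC : 1 ≤ C) (hl : 0 ≤ l)
    (hη : 0 ≤ η) (hV : VV S b ≤ 2 * l) :
    EE S (fun ω => Q.eval (PP S b ω) ^ 2) ≤ 16 * C ^ 2 * Real.exp (η * l / 2) := by
  have hV0 := VV_nonneg S b
  have h1 : EE S (fun ω => Q.eval (PP S b ω) ^ 2) ≤
      EE S (fun ω => 4 * C ^ 2 * Real.exp (η * l / 2) +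
        4 * Real.exp (-(74 * l)) * Real.exp (6 * |PP S b ω|) +
        2 * Real.exp (-(200 * Z ^ 2 * l) - 20 * l) * Real.exp (4 * Z * |PP S b ω|)) :=
    EE_mono hS fun ω _ => h.sq_le (by linarith) _
  rw [EE_add, EE_add, EE_const, EE_mul_left, EE_mul_left] at h1
  have h2 := EE_exp_abs hS b 6
  have h3 := EE_exp_abs hS b (4 * Z)
  have h4 : 4 * Real.exp (-(74 * l)) * EE S (fun ω => Real.exp (6 * |PP S b ω|)) ≤ 8 := by
    calc 4 * Real.exp (-(74 * l)) * EE S (fun ω => Real.exp (6 * |PP S b ω|))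
        ≤ 4 * Real.exp (-(74 * l)) * (2 * Real.exp (6 ^ 2 * VV S b / 2)) :=
          mul_le_mul_of_nonneg_left h2 (by positivity)
      _ = 8 * Real.exp (-(74 * l) + 6 ^ 2 * VV S b / 2) := by rw [Real.exp_add]; ring
      _ ≤ 8 * 1 := by
          apply mul_le_mul_of_nonneg_left _ (by norm_num)
          rw [Real.exp_le_one_iff]
          linarith
      _ = 8 := by norm_num
  have hZ : 0 ≤ Z ^ 2 * l := by positivity
  have h5 : 2 * Real.exp (-(200 * Z ^ 2 * l) - 20 * l) * EE S (fun ω => Real.exp (4 * Z * |PP S b ω|))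
      ≤ 4 := by
    calc 2 * Real.exp (-(200 * Z ^ 2 * l) - 20 * l) * EE S (fun ω => Real.exp (4 * Z * |PP S b ω|))
        ≤ 2 * Real.exp (-(200 * Z ^ 2 * l) - 20 * l) * (2 * Real.exp ((4 * Z) ^ 2 * VV S b / 2)) :=
          mul_le_mul_of_nonneg_left h3 (by positivity)
      _ = 4 * Real.exp ((-(200 * Z ^ 2 * l) - 20 * l) + (4 * Z) ^ 2 * VV S b / 2) := by
          rw [Real.exp_add]; ring
      _ ≤ 4 * 1 := by
          apply mul_le_mul_of_nonneg_left _ (by norm_num)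
          rw [Real.exp_le_one_iff]
          have h6 : Z ^ 2 * VV S b ≤ Z ^ 2 * (2 * l) := mul_le_mul_of_nonneg_left hV (sq_nonneg _)
          nlinarith
      _ = 4 := by norm_num
  have h6 : 1 ≤ C ^ 2 * Real.exp (η * l / 2) := by
    have h7 : 1 ≤ C ^ 2 := one_le_pow₀ hC
    have h8 : 1 ≤ Real.exp (η * l / 2) := Real.one_le_exp (by positivity)
    nlinarith
  linarith

/-- fourth moment -/
theorem four {S : Finset ℕ} (hS : ∀ p ∈ S, 1 ≤ p) (b : ℕ → ℝ) (hl : 0 ≤ l)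
    (hV : VV S b ≤ 2 * l) :
    EE S (fun ω => Q.eval (PP S b ω) ^ 4) ≤ 32 * Real.exp (16 * l) := by
  have hV0 := VV_nonneg S b
  have h1 : EE S (fun ω => Q.eval (PP S b ω) ^ 4) ≤
      EE S (fun ω => 8 * Real.exp (4 * |PP S b ω|) +
        8 * Real.exp (-(400 * Z ^ 2 * l) - 40 * l) * Real.exp (8 * Z * |PP S b ω|)) :=
    EE_mono hS fun ω _ => h.four_le _
  rw [EE_add, EE_mul_left, EE_mul_left] at h1
  have h2 := EE_exp_abs hS b 4
  have h3 := EE_exp_abs hS b (8 * Z)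
  have h4 : 8 * EE S (fun ω => Real.exp (4 * |PP S b ω|)) ≤ 16 * Real.exp (16 * l) := by
    calc 8 * EE S (fun ω => Real.exp (4 * |PP S b ω|))
        ≤ 8 * (2 * Real.exp (4 ^ 2 * VV S b / 2)) := mul_le_mul_of_nonneg_left h2 (by norm_num)
      _ = 16 * Real.exp (4 ^ 2 * VV S b / 2) := by ring
      _ ≤ 16 * Real.exp (16 * l) := by
          apply mul_le_mul_of_nonneg_left _ (by norm_num)
          apply Real.exp_le_exp.2; linarith
  have hZ : 0 ≤ Z ^ 2 * l := by positivity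
  have h5 : 8 * Real.exp (-(400 * Z ^ 2 * l) - 40 * l) * EE S (fun ω => Real.exp (8 * Z * |PP S b ω|))
      ≤ 16 := by
    calc 8 * Real.exp (-(400 * Z ^ 2 * l) - 40 * l) * EE S (fun ω => Real.exp (8 * Z * |PP S b ω|))
        ≤ 8 * Real.exp (-(400 * Z ^ 2 * l) - 40 * l) * (2 * Real.exp ((8 * Z) ^ 2 * VV S b / 2)) :=
          mul_le_mul_of_nonneg_left h3 (by positivity)
      _ = 16 * Real.exp ((-(400 * Z ^ 2 * l) - 40 * l) + (8 * Z) ^ 2 * VV S b / 2) := by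
          rw [Real.exp_add]; ring
      _ ≤ 16 * 1 := by
          apply mul_le_mul_of_nonneg_left _ (by norm_num)
          rw [Real.exp_le_one_iff]
          have h6 : Z ^ 2 * VV S b ≤ Z ^ 2 * (2 * l) := mul_le_mul_of_nonneg_left hV (sq_nonneg _)
          nlinarith
      _ = 16 := by norm_num
  have h6 : 1 ≤ Real.exp (16 * l) := Real.one_le_exp (by positivity)
  linarith

end Psi

end P004E.H185
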