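import Vale.Agent.P004E.H185.Nv

/-!
# Mertens' theorem for degree-two functions with convergent, nonvanishing `L(1)`
-/

set_option linter.all false

open Finset Real Filter Topology

namespace P004E.H185

/-- primes up to `N` -/
def pr (N : ℕ) : Finset ℕ := (Icc 1 N).filter Nat.Prime

lemma mem_pr {N p : ℕ} : p ∈ pr N ↔ p.Prime ∧ p ≤ N := by
  unfold pr
  simp only [mem_filter, mem_Icc]
  constructor
  · rintro ⟨⟨_, h2⟩, h3⟩; exact ⟨h3, h2⟩
  · rintro ⟨h1, h2⟩; exact ⟨⟨h1.one_lt.le, h2⟩, h1⟩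

lemma log_eq {n N : ℕ} (hn : 1 ≤ n) (hnN : n ≤ N) :
    Real.log n = ∑ p ∈ pr N, ∑ j ∈ Icc 1 N, if p ^ j ∣ n then Real.log p else 0 := by
  have h1 : ∀ p ∈ pr N, (∑ j ∈ Icc 1 N, if p ^ j ∣ n then Real.log p else 0) =
      (n.factorization p : ℝ) * Real.log p := by
    intro p hp
    obtain ⟨hp1, hp2⟩ := mem_pr.1 hp
    rw [← Finset.sum_filter]
    have h2 : (Icc 1 N).filter (fun j => p ^ j ∣ n) = Icc 1 (n.factorization p) := by
      ext j
      simp only [mem_filter, mem_Icc]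
      rw [hp1.pow_dvd_iff_le_factorization (by omega)]
      have := Nat.factorization_lt (n := n) p (by omega)
      omega
    rw [h2]; simp
  rw [Finset.sum_congr rfl h1, Real.log_nat_eq_sum_factorization, Finsupp.sum]
  apply Finset.sum_subset
  · intro p hp
    rw [Nat.support_factorization] at hp
    exact mem_pr.2 ⟨Nat.prime_of_mem_primeFactors hp, (Nat.le_of_mem_primeFactors hp).trans hnN⟩
  · intro p _ hp
    have : n.factorization p = 0 := Finsupp.notMem_support_iff.1 hp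
    rw [this]; simp

lemma sum_dvd (N d : ℕ) (hd : 1 ≤ d) (g : ℕ → ℝ) :
    (∑ n ∈ Icc 1 N, if d ∣ n then g n else 0) = ∑ m ∈ Icc 1 (N / d), g (d * m) := by
  rw [← Finset.sum_filter]
  symm
  apply Finset.sum_bij (fun m _ => d * m)
  · intro m hm
    simp only [mem_Icc, mem_filter] at hm ⊢
    refine ⟨⟨?_, ?_⟩, dvd_mul_right _ _⟩
    · nlinarith
    · calc d * m ≤ d * (N / d) := Nat.mul_le_mul_left _ hm.2
        _ ≤ N := Nat.mul_div_le _ _
  · intro a _ b _ hab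
    exact Nat.eq_of_mul_eq_mul_left (by omega) hab
  · intro n hn
    simp only [mem_Icc, mem_filter] at hn
    obtain ⟨⟨h1, h2⟩, m, rfl⟩ := hn
    refine ⟨m, ?_, rfl⟩
    rw [mem_Icc]
    constructor
    · rcases Nat.eq_zero_or_pos m with rfl | hm
      · simp at h1
      · exact hm
    · rw [Nat.le_div_iff_mul_le (by omega), mul_comm]; exact h2
  · intro m _; rfl

lemma sum_shift (F : ℕ → ℝ) (N : ℕ) :
    ∑ j ∈ Icc 1 (N + 1), F j = F 1 + ∑ j ∈ Icc 1 N, F (j + 1) := by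
  induction N with
  | zero => simp
  | succ N ih =>
    rw [Finset.sum_Icc_succ_top (by omega), ih, Finset.sum_Icc_succ_top (by omega)]; ring

namespace Deg2

variable {f e : ℕ → ℝ} (h : Deg2 f e)
include h

lemma hecke_pow {p : ℕ} (hp : p.Prime) (i j : ℕ) :
    f (p ^ (i + 1 + (j + 1))) = f (p ^ (i + 1)) * f (p ^ (j + 1)) - e p * f (p ^ i) * f (p ^ j) := by
  induction j using Nat.twoStepInduction with
  | zero =>
    rw [show i + 1 + (0 + 1) = i + 2 by ring, h.rec2 p i hp]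
    simp [h.one]; ring
  | one =>
    rw [show i + 1 + (1 + 1) = (i + 1) + 2 by ring, h.rec2 p (i + 1) hp,
      show i + 1 + 1 = i + 2 by ring, h.rec2 p i hp]
    have := h.rec2 p 0 hp
    simp only [zero_add, pow_one, pow_zero, h.one] at this
    rw [this]; simp; ring
  | more j ih1 ih2 =>
    rw [show i + 1 + (j + 2 + 1) = (i + 1 + (j + 1)) + 2 by ring, h.rec2 p _ hp,
      show i + 1 + (j + 1) + 1 = i + 1 + (j + 1 + 1) by ring, ih2, ih1,
      show j + 2 + 1 = (j + 1) + 2 by ring, h.rec2 p (j + 1) hp, h.rec2 p j hp]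
    ring

lemma hecke {p : ℕ} (hp : p.Prime) (j : ℕ) {m : ℕ} (hm : 1 ≤ m) :
    f (p ^ (j + 1) * m) = f (p ^ (j + 1)) * f m -
      (if p ∣ m then e p * f (p ^ j) * f (m / p) else 0) := by
  by_cases hpm : p ∣ m
  · rw [if_pos hpm]
    obtain ⟨i, m', hm', rfl⟩ : ∃ i m', ¬ p ∣ m' ∧ m = p ^ (i + 1) * m' := by
      obtain ⟨k, m', h1, h2⟩ := Nat.exists_eq_pow_mul_and_not_dvd (n := m) (by omega) p hp.ne_one
      refine ⟨k - 1, m', h1, ?_⟩
      have : k ≠ 0 := by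
        rintro rfl
        rw [pow_zero, one_mul] at h2
        exact h1 (h2 ▸ hpm)
      rw [Nat.sub_add_cancel (by omega)]; exact h2
    have hc : ∀ k, Nat.Coprime (p ^ k) m' := fun k =>
      Nat.Coprime.pow_left _ ((Nat.Prime.coprime_iff_not_dvd hp).2 hm')
    have e1 : p ^ (j + 1) * (p ^ (i + 1) * m') = p ^ (i + 1 + (j + 1)) * m' := by ring
    have e2 : p ^ (i + 1) * m' / p = p ^ i * m' := by
      rw [pow_succ, mul_comm (p ^ i) p, mul_assoc, Nat.mul_div_cancel_left _ hp.pos]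
    rw [e1, e2, h.mul _ _ (hc _), h.mul _ _ (hc _), h.mul _ _ (hc _), hecke_pow h hp]
    ring
  · rw [if_neg hpm, sub_zero]
    exact h.mul _ _ (Nat.Coprime.pow_left _ ((Nat.Prime.coprime_iff_not_dvd hp).2 hpm))

/-- the sum over multiples of `p^(j+1)` -/
lemma V_eq {p : ℕ} (hp : p.Prime) (j N : ℕ) :
    (∑ n ∈ Icc 1 N, if p ^ (j + 1) ∣ n then f n / n else 0) =
      f (p ^ (j + 1)) / (p : ℝ) ^ (j + 1) * T f (N / p ^ (j + 1)) -
      e p * f (p ^ j) / (p : ℝ) ^ (j + 2) * T f (N / p ^ (j + 2)) := by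
  have hp0 : (p : ℝ) ≠ 0 := by exact_mod_cast hp.ne_zero
  rw [sum_dvd N _ (Nat.one_le_iff_ne_zero.2 (pow_ne_zero _ hp.ne_zero)) (fun n => f n / n)]
  have h1 : ∀ m ∈ Icc 1 (N / p ^ (j + 1)), f (p ^ (j + 1) * m) / ((p ^ (j + 1) * m : ℕ) : ℝ) =
      f (p ^ (j + 1)) / (p : ℝ) ^ (j + 1) * (f m / m) -
      (if p ∣ m then e p * f (p ^ j) / (p : ℝ) ^ (j + 1) * (f (m / p) / m) else 0) := by
    intro m hm
    have hm1 := (Finset.mem_Icc.1 hm).1
    have hm0 : (m : ℝ) ≠ 0 := by positivity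
    rw [hecke h hp j hm1]
    push_cast
    split_ifs
    · field_simp
    · field_simp; ring
  rw [Finset.sum_congr rfl h1, Finset.sum_sub_distrib, ← Finset.mul_sum]
  congr 1
  rw [sum_dvd _ p hp.one_lt.le (fun m => e p * f (p ^ j) / (p : ℝ) ^ (j + 1) * (f (m / p) / m)),
    Nat.div_div_eq_div_mul, ← pow_succ, ← Finset.mul_sum] 
  have h2 : ∑ i ∈ Icc 1 (N / p ^ (j + 1 + 1)), f (p * i / p) / ((p * i : ℕ) : ℝ) =
      (1 / (p : ℝ)) * T f (N / p ^ (j + 2)) := by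
    unfold T
    rw [Finset.mul_sum]
    apply Finset.sum_congr rfl
    intro i hi
    rw [Nat.mul_div_cancel_left _ hp.pos]
    push_cast
    field_simp
  rw [h2]
  field_simp
  ring

/-- crude bound at prime powers -/
lemma le_pow {p : ℕ} (hp : p.Prime) (j : ℕ) : |f (p ^ j)| ≤ j + 1 := by
  refine (h.le _).trans ?_
  rw [Nat.divisors_prime_pow hp]
  simp

lemma V_bound {B0 : ℝ} (hB : ∀ n, |T f n| ≤ B0) {p : ℕ} (hp : p.Prime) (j N : ℕ) :
    |∑ n ∈ Icc 1 N, if p ^ (j + 1) ∣ n then f n / n else 0| ≤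
      B0 * (2 * j + 3) / (p : ℝ) ^ (j + 1) := by
  have hB0 : 0 ≤ B0 := (abs_nonneg _).trans (hB 0)
  have hp1 : (1 : ℝ) ≤ p := by exact_mod_cast hp.one_lt.le
  have hp0 : (0 : ℝ) < p := by linarith
  rw [V_eq h hp]
  have h1 : |f (p ^ (j + 1)) / (p : ℝ) ^ (j + 1) * T f (N / p ^ (j + 1))| ≤
      (j + 2) / (p : ℝ) ^ (j + 1) * B0 := by
    rw [abs_mul, abs_div, abs_of_pos (a := (p : ℝ) ^ (j + 1)) (by positivity)]
    have := le_pow h hp (j + 1)
    push_cast at this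
    apply mul_le_mul _ (hB _) (abs_nonneg _) (by positivity)
    apply div_le_div_of_nonneg_right _ (by positivity)
    linarith
  have h2 : |e p * f (p ^ j) / (p : ℝ) ^ (j + 2) * T f (N / p ^ (j + 2))| ≤
      (j + 1) / (p : ℝ) ^ (j + 1) * B0 := by
    rw [abs_mul, abs_div, abs_mul, abs_of_pos (a := (p : ℝ) ^ (j + 2)) (by positivity)]
    apply mul_le_mul _ (hB _) (abs_nonneg _) (by positivity)
    have h3 : |e p| * |f (p ^ j)| ≤ j + 1 := by
      calc |e p| * |f (p ^ j)| ≤ 1 * (j + 1) :=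
            mul_le_mul (h.ep p hp) (le_pow h hp j) (abs_nonneg _) zero_le_one
        _ = _ := by ring
    apply div_le_div₀ (by positivity) h3 (by positivity)
    exact pow_le_pow_right₀ hp1 (by omega)
  have h3 := abs_sub (f (p ^ (j + 1)) / (p : ℝ) ^ (j + 1) * T f (N / p ^ (j + 1)))
    (e p * f (p ^ j) / (p : ℝ) ^ (j + 2) * T f (N / p ^ (j + 2)))
  have h4 : (j + 2) / (p : ℝ) ^ (j + 1) * B0 + (j + 1) / (p : ℝ) ^ (j + 1) * B0 =
    B0 * (2 * j + 3) / (p : ℝ) ^ (j + 1) := by ring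
  linarith

omit h in
lemma sum_half (N : ℕ) : ∑ j ∈ Icc 1 N, (2 * (j : ℝ) + 3) / 2 ^ (j + 1) ≤ 7 / 2 := by
  have : ∀ N : ℕ, ∑ j ∈ Icc 1 N, (2 * (j : ℝ) + 3) / 2 ^ (j + 1) = 7 / 2 - (2 * N + 7) / 2 ^ (N + 1) := by
    intro N
    induction N with
    | zero => norm_num
    | succ N ih =>
      rw [Finset.sum_Icc_succ_top (by omega), ih]
      push_cast
      rw [pow_succ]
      field_simp
      ring
  rw [this]
  have : (0:ℝ) ≤ (2 * (N : ℝ) + 7) / 2 ^ (N + 1) := by positivity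
  linarith

lemma W_bound {B0 : ℝ} (hB : ∀ n, |T f n| ≤ B0) {p : ℕ} (hp : p.Prime) (N : ℕ) :
    |(∑ j ∈ Icc 1 (N + 1), ∑ n ∈ Icc 1 (N + 1), if p ^ j ∣ n then f n / n else 0) -
      f p / p * T f ((N + 1) / p)| ≤ 15 * B0 / (p : ℝ) ^ 2 := by
  have hB0 : 0 ≤ B0 := (abs_nonneg _).trans (hB 0)
  have hp1 : (1 : ℝ) ≤ p := by exact_mod_cast hp.one_lt.le
  have hp2 : (2 : ℝ) ≤ p := by exact_mod_cast hp.two_le
  have hp0 : (0 : ℝ) < p := by linarith
  rw [sum_shift (fun j => ∑ n ∈ Icc 1 (N + 1), if p ^ j ∣ n then f n / n else 0)]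
  have h1 : |(∑ n ∈ Icc 1 (N + 1), if p ^ 1 ∣ n then f n / n else 0) - f p / p * T f ((N + 1) / p)| ≤
      B0 / (p : ℝ) ^ 2 := by
    have := V_eq h hp 0 (N + 1)
    rw [show (0 + 1 : ℕ) = 1 from rfl] at this
    rw [this]
    simp only [pow_one, pow_zero, h.one, mul_one, zero_add]
    rw [sub_sub_cancel_left, abs_neg, abs_mul, abs_div, abs_of_pos (a := (p : ℝ) ^ 2) (by positivity)]
    calc |e p| / (p : ℝ) ^ 2 * |T f ((N + 1) / p ^ 2)| ≤ 1 / (p : ℝ) ^ 2 * B0 := by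
          apply mul_le_mul _ (hB _) (abs_nonneg _) (by positivity)
          exact div_le_div_of_nonneg_right (h.ep p hp) (by positivity)
      _ = _ := by ring
  have h2 : |∑ j ∈ Icc 1 N, ∑ n ∈ Icc 1 (N + 1), if p ^ (j + 1) ∣ n then f n / n else 0| ≤
      14 * B0 / (p : ℝ) ^ 2 := by
    calc |∑ j ∈ Icc 1 N, ∑ n ∈ Icc 1 (N + 1), if p ^ (j + 1) ∣ n then f n / n else 0|
        ≤ ∑ j ∈ Icc 1 N, |∑ n ∈ Icc 1 (N + 1), if p ^ (j + 1) ∣ n then f n / n else 0| :=
          Finset.abs_sum_le_sum_abs _ _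
      _ ≤ ∑ j ∈ Icc 1 N, (4 * B0 / (p : ℝ) ^ 2) * ((2 * (j : ℝ) + 3) / 2 ^ (j + 1)) := by
          apply Finset.sum_le_sum
          intro j hj
          refine (V_bound h hB hp j (N + 1)).trans ?_
          have hj1 := (Finset.mem_Icc.1 hj).1
          obtain ⟨i, rfl⟩ : ∃ i, j = i + 1 := ⟨j - 1, by omega⟩
          have h3 : (p : ℝ) ^ 2 * 2 ^ i ≤ (p : ℝ) ^ (i + 1 + 1) := by
            rw [show i + 1 + 1 = 2 + i by ring, pow_add]
            exact mul_le_mul_of_nonneg_left (pow_le_pow_left₀ (by norm_num) hp2 i) (by positivity)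
          have h4 : 4 * B0 / (p : ℝ) ^ 2 * ((2 * ((i + 1 : ℕ) : ℝ) + 3) / 2 ^ (i + 1 + 1)) =
            B0 * (2 * ((i + 1 : ℕ) : ℝ) + 3) / ((p : ℝ) ^ 2 * 2 ^ i) := by
            rw [pow_succ, pow_succ]; field_simp; ring
          rw [h4]
          exact div_le_div_of_nonneg_left (by positivity) (by positivity) h3
      _ = (4 * B0 / (p : ℝ) ^ 2) * ∑ j ∈ Icc 1 N, ((2 * (j : ℝ) + 3) / 2 ^ (j + 1)) := by
          rw [Finset.mul_sum]
      _ ≤ (4 * B0 / (p : ℝ) ^ 2) * (7 / 2) :=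
          mul_le_mul_of_nonneg_left (sum_half N) (by positivity)
      _ = _ := by ring
  have h3 := abs_add_le ((∑ n ∈ Icc 1 (N + 1), if p ^ 1 ∣ n then f n / n else 0) -
    f p / p * T f ((N + 1) / p)) (∑ j ∈ Icc 1 N, ∑ n ∈ Icc 1 (N + 1), if p ^ (j + 1) ∣ n then f n / n else 0)
  have h4 : (∑ n ∈ Icc 1 (N + 1), if p ^ 1 ∣ n then f n / n else 0) +
      (∑ j ∈ Icc 1 N, ∑ n ∈ Icc 1 (N + 1), if p ^ (j + 1) ∣ n then f n / n else 0) -
      f p / p * T f ((N + 1) / p) = (∑ n ∈ Icc 1 (N + 1), if p ^ 1 ∣ n then f n / n else 0) -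
      f p / p * T f ((N + 1) / p) +
      ∑ j ∈ Icc 1 N, ∑ n ∈ Icc 1 (N + 1), if p ^ (j + 1) ∣ n then f n / n else 0 := by ring
  have h5 : B0 / (p : ℝ) ^ 2 + 14 * B0 / (p : ℝ) ^ 2 = 15 * B0 / (p : ℝ) ^ 2 := by ring
  rw [h4]
  linarith

end Deg2

lemma sum_log_sq (N : ℕ) : ∑ p ∈ pr N, Real.log p / (p : ℝ) ^ 2 ≤ 20 := by
  calc ∑ p ∈ pr N, Real.log p / (p : ℝ) ^ 2
      ≤ ∑ p ∈ pr N, 4 * (p : ℝ) ^ (-1 - (1 / 4) : ℝ) := by
        apply Finset.sum_le_sum
        intro p hp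
        have hp1 := (mem_pr.1 hp).1
        have hp2 : (1 : ℝ) ≤ p := by exact_mod_cast hp1.one_lt.le
        have hp0 : (0 : ℝ) < p := by linarith
        have h1 : Real.log p ≤ 4 * (p : ℝ) ^ (1 / 4 : ℝ) := by
          have := Real.log_le_rpow_div (x := p) (ε := 1 / 4) hp0.le (by norm_num)
          linarith
        rw [div_le_iff₀ (by positivity)]
        refine h1.trans ?_
        have h2 : 4 * (p : ℝ) ^ (-1 - (1 / 4) : ℝ) * (p : ℝ) ^ 2 = 4 * (p : ℝ) ^ (3 / 4 : ℝ) := by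
          rw [mul_assoc, ← Real.rpow_natCast, ← Real.rpow_add hp0]; norm_num
        rw [h2]
        have : (p : ℝ) ^ (1 / 4 : ℝ) ≤ (p : ℝ) ^ (3 / 4 : ℝ) :=
          Real.rpow_le_rpow_of_exponent_le hp2 (by norm_num)
        linarith
    _ ≤ ∑ n ∈ Icc 1 N, 4 * (n : ℝ) ^ (-1 - (1 / 4) : ℝ) := by
        apply Finset.sum_le_sum_of_subset_of_nonneg
        · intro p hp; rw [mem_pr] at hp; rw [mem_Icc]; exact ⟨hp.1.one_lt.le, hp.2⟩
        · intro i _ _; positivity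
    _ = 4 * ∑ n ∈ Icc 1 N, (n : ℝ) ^ (-1 - (1 / 4) : ℝ) := by rw [Finset.mul_sum]
    _ ≤ 20 := by
        have := sum_rpow_Icc (a := 1 / 4) (by norm_num) N
        norm_num at this ⊢; linarith

lemma sum_theta_pow (N : ℕ) :
    ∑ p ∈ pr N, Real.log p * (p : ℝ) ^ (-(3 / 4) : ℝ) ≤ Real.log 4 * (4 * (N : ℝ) ^ (1 / 4 : ℝ)) := by
  have h1 : ∑ p ∈ pr N, Real.log p * (p : ℝ) ^ (-(3 / 4) : ℝ) =
      ∑ n ∈ Icc 1 N, (if n.Prime then Real.log n else 0) * (n : ℝ) ^ (-(3 / 4) : ℝ) := by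
    unfold pr
    rw [Finset.sum_filter]
    apply Finset.sum_congr rfl
    intro n _
    split_ifs <;> simp
  rw [h1]
  refine (abel_compare _ (fun n => (n : ℝ) ^ (-(3 / 4) : ℝ)) (Real.log 4) N ?_ ?_ (by positivity)).trans ?_
  · intro n
    have h2 := Chebyshev.theta_le_log4_mul_x (x := n) (by positivity)
    have h3 : S (fun n => if n.Prime then Real.log n else 0) n = Chebyshev.theta n := by
      unfold S Chebyshev.theta
      rw [← Finset.sum_filter, Nat.floor_natCast]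
      rfl
    rw [h3]; exact h2
  · intro n hn
    exact rpow_neg_le (by norm_num) hn (by omega)
  · apply mul_le_mul_of_nonneg_left _ (Real.log_nonneg (by norm_num))
    have := sum_rpow_pos (b := 1 / 4) (by norm_num) (by norm_num) N
    have h2 : (N : ℝ) ^ (1 / 4 : ℝ) / (1 / 4) = 4 * (N : ℝ) ^ (1 / 4 : ℝ) := by ring
    rw [h2] at this
    norm_num at this ⊢
    exact this

namespace Deg2

variable {f e : ℕ → ℝ} (h : Deg2 f e)
include h

/-- Mertens for `f` -/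
theorem mertens {D L₁ : ℝ} (hD : 0 ≤ D)
    (hT : ∀ n : ℕ, 1 ≤ n → |T f n - L₁| ≤ D * (n : ℝ) ^ (-(1 / 4) : ℝ)) :
    ∃ C : ℝ, ∀ N : ℕ, |L₁ * ∑ p ∈ pr N, f p * Real.log p / p| ≤ C := by
  set B0 : ℝ := |L₁| + D with hB0
  have hB : ∀ n, |T f n| ≤ B0 := by
    intro n
    rcases Nat.eq_zero_or_pos n with rfl | hn
    · simp; positivity
    · have h1 := hT n hn
      have h2 : (n : ℝ) ^ (-(1 / 4) : ℝ) ≤ 1 :=
        Real.rpow_le_one_of_one_le_of_nonpos (by exact_mod_cast hn) (by norm_num)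
      have h3 : |T f n| ≤ |T f n - L₁| + |L₁| := by
        have := abs_add_le (T f n - L₁) L₁
        simpa using this
      nlinarith
  refine ⟨13 * D + 300 * B0 + 16 * Real.log 4 * D * 2, fun N => ?_⟩
  have hB0' : 0 ≤ B0 := by positivity
  have hlog4 : 0 ≤ Real.log 4 := Real.log_nonneg (by norm_num)
  rcases Nat.eq_zero_or_pos N with rfl | hN
  · simp [pr]; positivity
  obtain ⟨M, rfl⟩ : ∃ M, N = M + 1 := ⟨N - 1, by omega⟩
  -- the log sum
  have hs := sum_log_bdd hD hT (M + 1)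
  have hs2 : ∑ n ∈ Icc 1 (M + 1), f n / n * Real.log n =
      ∑ p ∈ pr (M + 1), Real.log p *
        ∑ j ∈ Icc 1 (M + 1), ∑ n ∈ Icc 1 (M + 1), if p ^ j ∣ n then f n / n else 0 := by
    have e1 : ∀ n ∈ Icc 1 (M + 1), f n / n * Real.log n =
        ∑ p ∈ pr (M + 1), ∑ j ∈ Icc 1 (M + 1), if p ^ j ∣ n then Real.log p * (f n / n) else 0 := by
      intro n hn
      rw [Finset.mem_Icc] at hn
      rw [log_eq hn.1 hn.2, Finset.mul_sum]
      apply Finset.sum_congr rfl; intro p _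
      rw [Finset.mul_sum]
      apply Finset.sum_congr rfl; intro j _
      split_ifs <;> ring
    rw [Finset.sum_congr rfl e1, Finset.sum_comm]
    apply Finset.sum_congr rfl; intro p _
    rw [Finset.sum_comm, Finset.mul_sum]
    apply Finset.sum_congr rfl; intro j _
    rw [Finset.mul_sum]
    apply Finset.sum_congr rfl; intro n _
    split_ifs <;> ring
  -- compare
  have h3 : |∑ n ∈ Icc 1 (M + 1), f n / n * Real.log n -
      ∑ p ∈ pr (M + 1), Real.log p * (f p / p * T f ((M + 1) / p))| ≤ 300 * B0 := by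
    rw [hs2, ← Finset.sum_sub_distrib]
    calc |∑ p ∈ pr (M + 1), (Real.log p * (∑ j ∈ Icc 1 (M + 1), ∑ n ∈ Icc 1 (M + 1),
            if p ^ j ∣ n then f n / n else 0) - Real.log p * (f p / p * T f ((M + 1) / p)))|
        ≤ ∑ p ∈ pr (M + 1), |Real.log p * (∑ j ∈ Icc 1 (M + 1), ∑ n ∈ Icc 1 (M + 1),
            if p ^ j ∣ n then f n / n else 0) - Real.log p * (f p / p * T f ((M + 1) / p))| :=
          Finset.abs_sum_le_sum_abs _ _
      _ ≤ ∑ p ∈ pr (M + 1), (15 * B0) * (Real.log p / (p : ℝ) ^ 2) := by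
          apply Finset.sum_le_sum
          intro p hp
          have hp1 := (mem_pr.1 hp).1
          have hlp : 0 ≤ Real.log p := Real.log_natCast_nonneg p
          rw [← mul_sub, abs_mul, abs_of_nonneg hlp]
          have := mul_le_mul_of_nonneg_left (W_bound h hB hp1 M) hlp
          have e2 : Real.log p * (15 * B0 / (p : ℝ) ^ 2) = (15 * B0) * (Real.log p / (p : ℝ) ^ 2) := by
            ring
          linarith
      _ = (15 * B0) * ∑ p ∈ pr (M + 1), Real.log p / (p : ℝ) ^ 2 := by rw [Finset.mul_sum]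
      _ ≤ (15 * B0) * 20 := mul_le_mul_of_nonneg_left (sum_log_sq _) (by positivity)
      _ = 300 * B0 := by ring
  have h4 : |∑ p ∈ pr (M + 1), Real.log p * (f p / p * T f ((M + 1) / p)) -
      L₁ * ∑ p ∈ pr (M + 1), f p * Real.log p / p| ≤ 16 * Real.log 4 * D * 2 := by
    rw [Finset.mul_sum, ← Finset.sum_sub_distrib]
    have hM0 : (0 : ℝ) < ((M + 1 : ℕ) : ℝ) := by positivity
    calc |∑ p ∈ pr (M + 1), (Real.log p * (f p / p * T f ((M + 1) / p)) - L₁ * (f p * Real.log p / p))|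
        ≤ ∑ p ∈ pr (M + 1),
            |Real.log p * (f p / p * T f ((M + 1) / p)) - L₁ * (f p * Real.log p / p)| :=
          Finset.abs_sum_le_sum_abs _ _
      _ ≤ ∑ p ∈ pr (M + 1), (4 * D * ((M + 1 : ℕ) : ℝ) ^ (-(1 / 4) : ℝ) * 2) *
            (Real.log p * (p : ℝ) ^ (-(3 / 4) : ℝ)) := by
          apply Finset.sum_le_sum
          intro p hp
          obtain ⟨hp1, hp2⟩ := mem_pr.1 hp
          have hp0 : (0 : ℝ) < p := by exact_mod_cast hp1.pos
          have hlp : 0 ≤ Real.log p := Real.log_natCast_nonneg p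
          have e1 : Real.log p * (f p / p * T f ((M + 1) / p)) - L₁ * (f p * Real.log p / p) =
            (Real.log p / p) * f p * (T f ((M + 1) / p) - L₁) := by ring
          have hq1 : 1 ≤ (M + 1) / p := Nat.div_pos hp2 hp1.pos
          have e2 := hT ((M + 1) / p) hq1
          have e3 : (((M + 1) / p : ℕ) : ℝ) ^ (-(1 / 4) : ℝ) ≤
              2 * (((M + 1 : ℕ) : ℝ) ^ (-(1 / 4) : ℝ) * (p : ℝ) ^ (1 / 4 : ℝ)) := by
            have e4 : ((M + 1 : ℕ) : ℝ) / (2 * p) ≤ (((M + 1) / p : ℕ) : ℝ) := by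
              have e5 : ((M + 1 : ℕ) : ℝ) < p * ((((M + 1) / p : ℕ) : ℝ) + 1) := by
                have := Nat.lt_mul_div_succ (M + 1) hp1.pos
                exact_mod_cast this
              have e6 : (1 : ℝ) ≤ (((M + 1) / p : ℕ) : ℝ) := by exact_mod_cast hq1
              rw [div_le_iff₀ (by positivity)]
              nlinarith
            calc (((M + 1) / p : ℕ) : ℝ) ^ (-(1 / 4) : ℝ)
                ≤ (((M + 1 : ℕ) : ℝ) / (2 * p)) ^ (-(1 / 4) : ℝ) :=
                  Real.rpow_le_rpow_of_nonpos (by positivity) e4 (by norm_num)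
              _ = ((M + 1 : ℕ) : ℝ) ^ (-(1 / 4) : ℝ) * (2 * p : ℝ) ^ (1 / 4 : ℝ) := by
                  rw [Real.div_rpow (by positivity) (by positivity), Real.rpow_neg (x := 2 * (p : ℝ))
                    (by positivity), div_inv_eq_mul]
              _ = ((M + 1 : ℕ) : ℝ) ^ (-(1 / 4) : ℝ) * (2 ^ (1 / 4 : ℝ) * (p : ℝ) ^ (1 / 4 : ℝ)) := by
                  rw [Real.mul_rpow (by norm_num) hp0.le]
              _ ≤ ((M + 1 : ℕ) : ℝ) ^ (-(1 / 4) : ℝ) * (2 * (p : ℝ) ^ (1 / 4 : ℝ)) := by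
                  apply mul_le_mul_of_nonneg_left _ (by positivity)
                  apply mul_le_mul_of_nonneg_right _ (by positivity)
                  calc (2 : ℝ) ^ (1 / 4 : ℝ) ≤ 2 ^ (1 : ℝ) :=
                        Real.rpow_le_rpow_of_exponent_le (by norm_num) (by norm_num)
                    _ = 2 := by norm_num
              _ = _ := by ring
          rw [e1, abs_mul, abs_mul, abs_of_nonneg (a := Real.log p / p) (by positivity)]
          calc Real.log p / p * |f p| * |T f ((M + 1) / p) - L₁|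
              ≤ Real.log p / p * 2 * (D * (2 * (((M + 1 : ℕ) : ℝ) ^ (-(1 / 4) : ℝ) *
                  (p : ℝ) ^ (1 / 4 : ℝ)))) := by
                apply mul_le_mul _ _ (abs_nonneg _) (by positivity)
                · exact mul_le_mul_of_nonneg_left (h.fp p hp1) (by positivity)
                · exact e2.trans (mul_le_mul_of_nonneg_left e3 hD)
            _ = 4 * D * ((M + 1 : ℕ) : ℝ) ^ (-(1 / 4) : ℝ) *
                  (Real.log p * ((p : ℝ) ^ (1 / 4 : ℝ) * (p : ℝ)⁻¹)) := by ring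
            _ = 4 * D * ((M + 1 : ℕ) : ℝ) ^ (-(1 / 4) : ℝ) *
                  (Real.log p * (p : ℝ) ^ (-(3 / 4) : ℝ)) := by
                rw [← Real.rpow_neg_one, ← Real.rpow_add hp0]; norm_num
            _ ≤ _ := by
                have : 0 ≤ 4 * D * ((M + 1 : ℕ) : ℝ) ^ (-(1 / 4) : ℝ) *
                  (Real.log p * (p : ℝ) ^ (-(3 / 4) : ℝ)) := by positivity
                linarith
      _ = (4 * D * ((M + 1 : ℕ) : ℝ) ^ (-(1 / 4) : ℝ) * 2) *
            ∑ p ∈ pr (M + 1), Real.log p * (p : ℝ) ^ (-(3 / 4) : ℝ) := by rw [Finset.mul_sum]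
      _ ≤ (4 * D * ((M + 1 : ℕ) : ℝ) ^ (-(1 / 4) : ℝ) * 2) *
            (Real.log 4 * (4 * ((M + 1 : ℕ) : ℝ) ^ (1 / 4 : ℝ))) :=
          mul_le_mul_of_nonneg_left (sum_theta_pow _) (by positivity)
      _ = 16 * Real.log 4 * D * 2 *
            (((M + 1 : ℕ) : ℝ) ^ (-(1 / 4) : ℝ) * ((M + 1 : ℕ) : ℝ) ^ (1 / 4 : ℝ)) := by ring
      _ = _ := by rw [← Real.rpow_add hM0]; norm_num
  have a1 := abs_le.1 hs
  have a2 := abs_le.1 h3
  have a3 := abs_le.1 h4
  rw [abs_le]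
  constructor <;> linarith [a1.1, a1.2, a2.1, a2.2, a3.1, a3.2]

end Deg2

end P004E.H185
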