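import Vale.Agent.P004E.H185.Sum1
import Vale.Agent.P004E.H185.Mert1

/-!
# `StN0` from `StMert`
-/

set_option linter.all false

open Finset Real Filter Topology

namespace P004E.H185

open P004G

variable [Crv]

lemma ca_mul' {m n : ℕ} (h : Nat.Coprime m n) : ca (m * n) = ca m * ca n := Crv.c_mul m n h

lemma lam_zero' : lam 0 = 0 := by simp [lam]

lemma lam_one' : lam 1 = 1 := by
  unfold lam ca
  rw [Crv.c_one]; simp

lemma lam_mul' {m n : ℕ} (h : Nat.Coprime m n) : lam (m * n) = lam m * lam n := by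
  unfold lam
  rw [ca_mul' h]
  push_cast
  rw [Real.sqrt_mul (Nat.cast_nonneg m), mul_div_mul_comm]

lemma lam_abs_le (n : ℕ) : |lam n| ≤ (n.divisors.card : ℝ) := by
  rcases Nat.eq_zero_or_pos n with rfl | hn
  · rw [lam_zero']; simp
  · have hn0 : (0 : ℝ) < √(n : ℝ) := Real.sqrt_pos.2 (by exact_mod_cast hn)
    unfold lam
    rw [abs_div, abs_of_pos hn0, div_le_iff₀ hn0]
    exact Crv.c_bound n

lemma mf_lam : Mf (fun n => lam n ^ 2) where
  nn := fun n => sq_nonneg _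
  zero := by simp only [lam_zero']; norm_num
  one := by simp only [lam_one']; norm_num
  mul := fun m n h => by simp only [lam_mul' h]; ring
  le := fun p k hp => by
    have h1 := lam_abs_le (p ^ k)
    rw [Nat.divisors_prime_pow hp] at h1
    simp only [Finset.card_map, Finset.card_range] at h1
    push_cast at h1
    rw [← sq_abs]
    exact pow_le_pow_left₀ (abs_nonneg _) h1 2

lemma ca_sq {n : ℕ} (hn : 1 ≤ n) : (ca n : ℝ) ^ 2 = n * lam n ^ 2 := by
  have hn0 : (0 : ℝ) < n := by exact_mod_cast hn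
  unfold lam
  rw [div_pow, Real.sq_sqrt hn0.le]
  field_simp

end P004E.H185

namespace P004E

open P004G H185

variable [Crv]

/-- `∑_{n ≤ N} lam n ^ 2 ≤ K N`. -/
theorem sum_lam_sq (hM : StMert) : ∃ K : ℝ, 1 ≤ K ∧ ∀ N : ℕ, ∑ n ∈ Icc 1 N, lam n ^ 2 ≤ K * N := by
  obtain ⟨C, hC, h⟩ := hM
  obtain ⟨C1, hC1, h1⟩ := mert1
  set K : ℝ := ∑ p ∈ bd.primeFactors, |lam p ^ 2 * Real.log p / p| with hK
  have hK0 : 0 ≤ K := Finset.sum_nonneg fun _ _ => abs_nonneg _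
  apply Mf.S_le mf_lam (C := C + C1 + K) (by linarith)
  intro N hN
  have hx : (1 : ℝ) ≤ N := by exact_mod_cast hN
  have e1 := gp_diff (fun p => lam p ^ 2 * Real.log p / p) (N : ℝ)
  rw [Nat.floor_natCast] at e1
  have e2 := h N hx
  have e3 := h1 N hx
  have e4 : ∑ p ∈ gp (N : ℝ), lam p ^ 2 * Real.log p / p =
      ∑ p ∈ gp (N : ℝ), (lam p ^ 2 - 1) * Real.log p / p + ∑ p ∈ gp (N : ℝ), Real.log p / p := by
    rw [← Finset.sum_add_distrib]
    exact Finset.sum_congr rfl fun p _ => by ring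
  have e5 : ∑ p ∈ pr N, lam p ^ 2 * Real.log p / p =
    ∑ p ∈ Mer.pr N, lam p ^ 2 * Real.log p / p := rfl
  rw [e5]
  have a1 := (abs_le.1 e1).1
  have a2 := (abs_le.1 e2).2
  have a3 := (abs_le.1 e3).2
  linarith

/-- **`StN0`** from `StMert`. -/
theorem pfN0 (hM : StMert) : StN0 := by
  obtain ⟨K, hK, h⟩ := sum_lam_sq hM
  refine ⟨K, hK, fun x hx => ?_⟩
  have h1 := h ⌊x⌋₊
  have hfl : ((⌊x⌋₊ : ℕ) : ℝ) ≤ x := Nat.floor_le (by linarith)
  calc ∑ n ∈ Icc 1 ⌊x⌋₊, (ca n : ℝ) ^ 2 ≤ ∑ n ∈ Icc 1 ⌊x⌋₊, x * lam n ^ 2 := by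
        apply Finset.sum_le_sum
        intro n hn
        rw [Finset.mem_Icc] at hn
        rw [ca_sq hn.1]
        apply mul_le_mul_of_nonneg_right _ (sq_nonneg _)
        have : ((n : ℕ) : ℝ) ≤ ((⌊x⌋₊ : ℕ) : ℝ) := by exact_mod_cast hn.2
        linarith
    _ = x * ∑ n ∈ Icc 1 ⌊x⌋₊, lam n ^ 2 := by rw [Finset.mul_sum]
    _ ≤ x * (K * x) := by
        apply mul_le_mul_of_nonneg_left _ (by linarith)
        exact h1.trans (mul_le_mul_of_nonneg_left hfl (by linarith))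
    _ = K * x ^ 2 := by ring

end P004E
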