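import Vale.Agent.P004E.H185.Eul

/-!
# Nonvanishing at `1`
-/

set_option linter.all false

open Finset Real Filter Topology

namespace P004E.H185

/-- the character modulo `4` as a real function -/
noncomputable def chi (n : ℕ) : ℝ := ((ZMod.χ₄ (n : ZMod 4) : ℤ) : ℝ)

/-- the principal character modulo `2` -/
noncomputable def chi0 (n : ℕ) : ℝ := if n % 2 = 1 then 1 else 0

lemma chi_eq (n : ℕ) : chi n = if n % 2 = 0 then 0 else if n % 4 = 1 then 1 else -1 := by
  unfold chi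
  rw [ZMod.χ₄_nat_eq_if_mod_four]
  split_ifs <;> norm_num

lemma chi_mul (m n : ℕ) : chi (m * n) = chi m * chi n := by
  unfold chi
  push_cast
  rw [map_mul]; push_cast; rfl

lemma chi_pow (p k : ℕ) : chi (p ^ k) = chi p ^ k := by
  unfold chi
  push_cast
  rw [map_pow]; push_cast; rfl

lemma chi_abs (n : ℕ) : |chi n| ≤ 1 := by
  rw [chi_eq]; split_ifs <;> norm_num

lemma one_le_dv {n : ℕ} (hn : n ≠ 0) : (1 : ℝ) ≤ (n.divisors.card : ℝ) := by
  have : 0 < n.divisors.card := Finset.card_pos.2 ⟨1, by simp [hn]⟩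
  exact_mod_cast this

lemma deg2_chi : Deg2 chi (fun _ => 0) where
  zero := by rw [chi_eq]; simp
  one := by rw [chi_eq]; simp
  mul := fun m n _ => chi_mul m n
  rec2 := fun p k _ => by rw [chi_pow, chi_pow, chi_pow]; ring
  fp := fun p _ => (chi_abs p).trans (by norm_num)
  ep := fun p _ => by simp
  f2 := by rw [chi_eq]; simp
  e2 := rfl
  le := fun n => by
    rcases eq_or_ne n 0 with rfl | hn
    · rw [chi_eq]; simp
    · exact (chi_abs n).trans (one_le_dv hn)

lemma chi0_mul (m n : ℕ) : chi0 (m * n) = chi0 m * chi0 n := by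
  unfold chi0
  rcases Nat.mod_two_eq_zero_or_one m with h1 | h1 <;>
    rcases Nat.mod_two_eq_zero_or_one n with h2 | h2 <;> simp [Nat.mul_mod, h1, h2]

lemma chi0_one : chi0 1 = 1 := by simp [chi0]

lemma chi0_pow (p k : ℕ) : chi0 (p ^ k) = chi0 p ^ k := by
  induction k with
  | zero => simp [chi0_one]
  | succ k ih => rw [pow_succ, chi0_mul, ih, pow_succ]

lemma chi0_abs (n : ℕ) : |chi0 n| ≤ 1 := by
  unfold chi0; split_ifs <;> norm_num

lemma deg2_chi0 : Deg2 chi0 (fun _ => 0) where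
  zero := by simp [chi0]
  one := chi0_one
  mul := fun m n _ => chi0_mul m n
  rec2 := fun p k _ => by rw [chi0_pow, chi0_pow, chi0_pow]; ring
  fp := fun p _ => (chi0_abs p).trans (by norm_num)
  ep := fun p _ => by simp
  f2 := by simp [chi0]
  e2 := rfl
  le := fun n => by
    rcases eq_or_ne n 0 with rfl | hn
    · simp [chi0]
    · exact (chi0_abs n).trans (one_le_dv hn)

lemma S_chi (n : ℕ) : S chi n = if n % 4 = 1 ∨ n % 4 = 2 then 1 else 0 := by
  induction n with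
  | zero => simp
  | succ n ih =>
    rw [S_succ, ih, chi_eq]
    have h4 : n % 4 < 4 := Nat.mod_lt _ (by norm_num)
    have h2 : (n + 1) % 2 = (n % 4 + 1) % 2 := by omega
    have h3 : (n + 1) % 4 = (n % 4 + 1) % 4 := by omega
    rw [h2, h3]
    interval_cases (n % 4) <;> norm_num

lemma S_chi_le (n : ℕ) : |S chi n| ≤ 1 * (n : ℝ) ^ (3 / 4 : ℝ) := by
  rcases Nat.eq_zero_or_pos n with rfl | hn
  · simp
  · have h1 : |S chi n| ≤ 1 := by rw [S_chi]; split_ifs <;> norm_num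
    have h2 : (1 : ℝ) ≤ (n : ℝ) ^ (3 / 4 : ℝ) :=
      Real.one_le_rpow (by exact_mod_cast hn) (by norm_num)
    linarith

lemma T_chi_even (k : ℕ) : T chi (2 * k) = ∑ i ∈ Finset.range k, (-1 : ℝ) ^ i / (2 * i + 1) := by
  induction k with
  | zero => simp
  | succ k ih =>
    rw [Finset.sum_range_succ, ← ih, show 2 * (k + 1) = (2 * k + 1) + 1 by ring, T_succ, T_succ]
    have h1 : chi (2 * k + 1 + 1) = 0 := by
      rw [chi_eq, if_pos (by omega)]
    have h2 : chi (2 * k + 1) = (-1) ^ k := by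
      rw [chi_eq, if_neg (by omega)]
      rcases Nat.even_or_odd k with hk | hk
      · rw [hk.neg_one_pow, if_pos (by obtain ⟨m, rfl⟩ := hk; omega)]
      · rw [hk.neg_one_pow, if_neg (by obtain ⟨m, rfl⟩ := hk; omega)]
    rw [h1, h2]
    push_cast
    ring

lemma chi_L : ∀ n : ℕ, 1 ≤ n → |T chi n - π / 4| ≤ 6 * (n : ℝ) ^ (-(1 / 4) : ℝ) := by
  obtain ⟨L, hL⟩ := T_lim (f := chi) (B := 1) zero_le_one S_chi_le
  have h1 : Tendsto (fun n => T chi n) atTop (𝓝 L) := by
    rw [tendsto_iff_norm_sub_tendsto_zero]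
    have h2 : Tendsto (fun n : ℕ => 6 * 1 * (n : ℝ) ^ (-(1 / 4) : ℝ)) atTop (𝓝 0) := by
      have := (tendsto_rpow_neg_nat (a := 1 / 4) (by norm_num)).const_mul (6 * 1)
      simpa using this
    refine squeeze_zero' (Eventually.of_forall fun n => norm_nonneg _) ?_ h2
    filter_upwards [eventually_ge_atTop 1] with n hn
    exact hL n hn
  have h2 : Tendsto (fun k => T chi (2 * k)) atTop (𝓝 L) :=
    h1.comp (tendsto_id.const_mul_atTop' (by norm_num))
  have h3 : Tendsto (fun k => T chi (2 * k)) atTop (𝓝 (π / 4)) := by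
    have := Real.tendsto_sum_pi_div_four
    refine this.congr fun k => ?_
    rw [T_chi_even]
  have h4 := tendsto_nhds_unique h2 h3
  rw [← h4]
  intro n hn
  have := hL n hn
  linarith

namespace Deg2

variable {f e : ℕ → ℝ} (h : Deg2 f e)
include h

/-- `L(1 + η)` versus `L(1)` -/
lemma L_near {D L₁ : ℝ} (hD : 0 ≤ D)
    (hT : ∀ n : ℕ, 1 ≤ n → |T f n - L₁| ≤ D * (n : ℝ) ^ (-(1 / 4) : ℝ)) {η : ℝ} (hη : 0 < η) :
    |L f (1 + η) - L₁| ≤ 5 * D * η := by
  have hs : Summable (fun n : ℕ => f n * (n : ℝ) ^ (-(1 + η))) :=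
    (summable_abs h (σ := 1 + η) (by linarith)).of_norm
  have h1 : Tendsto (fun N : ℕ => ∑ i ∈ Finset.range (N + 1), f i * (i : ℝ) ^ (-(1 + η))) atTop
      (𝓝 (L f (1 + η))) := (tendsto_add_atTop_iff_nat 1).2 hs.hasSum.tendsto_sum_nat
  have h2 : ∀ N : ℕ, ∑ i ∈ Finset.range (N + 1), f i * (i : ℝ) ^ (-(1 + η)) =
      ∑ n ∈ Icc 1 N, f n / n * (n : ℝ) ^ (-η) := by
    intro N
    induction N with
    | zero => simp [h.zero]
    | succ N ih =>
      rw [Finset.sum_range_succ, ih, Finset.sum_Icc_succ_top (by omega)]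
      congr 1
      have : (0 : ℝ) < ((N + 1 : ℕ) : ℝ) := by positivity
      rw [neg_add, Real.rpow_add this, Real.rpow_neg_one]; ring
  have h3 : Tendsto (fun N : ℕ => |∑ n ∈ Icc 1 N, f n / n * (n : ℝ) ^ (-η) - L₁|) atTop
      (𝓝 |L f (1 + η) - L₁|) := by
    refine ((h1.sub_const L₁).abs).congr fun N => ?_
    rw [h2]
  have h4 : Tendsto (fun N : ℕ => D * (N : ℝ) ^ (-(1 / 4) : ℝ) + 5 * D * η) atTop
      (𝓝 (D * 0 + 5 * D * η)) :=
    ((tendsto_rpow_neg_nat (a := 1 / 4) (by norm_num)).const_mul D).add_const _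
  have h5 := le_of_tendsto_of_tendsto h3 h4 (by
    filter_upwards [eventually_ge_atTop 1] with N hN
    exact sum_eta hD hT hη.le hN)
  linarith

end Deg2

lemma L_chi0 {η : ℝ} (hη : 0 < η) : Deg2.L chi0 (1 + η) ≤ 1 + 1 / η := by
  unfold Deg2.L
  apply Real.tsum_le_of_sum_range_le
  · intro n
    have : 0 ≤ chi0 n := by unfold chi0; split_ifs <;> norm_num
    positivity
  · intro N
    rcases Nat.eq_zero_or_pos N with rfl | hN
    · simp; positivity
    have h1 : ∑ i ∈ Finset.range N, chi0 i * (i : ℝ) ^ (-(1 + η)) ≤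
        ∑ n ∈ Icc 1 N, (n : ℝ) ^ (-1 - η) := by
      have h2 : ∀ M : ℕ, ∑ i ∈ Finset.range (M + 1), chi0 i * (i : ℝ) ^ (-(1 + η)) ≤
        ∑ n ∈ Icc 1 M, (n : ℝ) ^ (-1 - η) := by
        intro M
        induction M with
        | zero => simp [chi0]
        | succ M ih =>
          rw [Finset.sum_range_succ, Finset.sum_Icc_succ_top (by omega)]
          apply add_le_add ih
          have h3 : chi0 (M + 1) ≤ 1 := (le_abs_self _).trans (chi0_abs _)
          have h4 : (0:ℝ) ≤ ((M + 1 : ℕ) : ℝ) ^ (-1 - η) := by positivity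
          rw [show -(1 + η) = -1 - η by ring]
          nlinarith
      obtain ⟨M, rfl⟩ : ∃ M, N = M + 1 := ⟨N - 1, by omega⟩
      refine (h2 M).trans ?_
      apply Finset.sum_le_sum_of_subset_of_nonneg
      · apply Finset.Icc_subset_Icc_right; omega
      · intro i _ _; positivity
    exact h1.trans (sum_rpow_Icc hη N)

/-- Nonvanishing of `L(1, f₂)` from the `3-4-1` inequality. -/
theorem nonvanish {f2 e2 f4 e4 : ℕ → ℝ} (h2 : Deg2 f2 e2) (h4 : Deg2 f4 e4)
    (hpos : ∀ p : ℕ, p.Prime → 0 ≤ 3 * chi0 p + 3 * chi p + 4 * f2 p + f4 p)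
    {D2 L2 D4 L4 : ℝ} (hD2 : 0 ≤ D2) (hD4 : 0 ≤ D4)
    (hT2 : ∀ n : ℕ, 1 ≤ n → |T f2 n - L2| ≤ D2 * (n : ℝ) ^ (-(1 / 4) : ℝ))
    (hT4 : ∀ n : ℕ, 1 ≤ n → |T f4 n - L4| ≤ D4 * (n : ℝ) ^ (-(1 / 4) : ℝ)) : L2 ≠ 0 := by
  intro hL2
  subst hL2
  set M1 : ℝ := |π / 4| + 5 * 6 with hM1
  set M4 : ℝ := |L4| + 5 * D4 with hM4
  have hM1p : 0 < M1 := by positivity
  have hM4p : 0 ≤ M4 := by positivity
  set C : ℝ := 2 ^ 3 * M1 ^ 3 * (5 * D2) ^ 4 * M4 with hC
  have hC0 : 0 ≤ C := by positivity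
  set c : ℝ := Real.exp (-(11 * Deg2.K0)) with hc
  have hc0 : 0 < c := Real.exp_pos _
  have key : ∀ η : ℝ, 0 < η → η ≤ 1 → c ≤ C * η := by
    intro η hη hη1
    have hσ : 1 < 1 + η := by linarith
    obtain ⟨l0, e0, b0⟩ := deg2_chi0.log_L hσ
    obtain ⟨l1, e1, b1⟩ := deg2_chi.log_L hσ
    obtain ⟨l2, e2', b2⟩ := h2.log_L hσ
    obtain ⟨l4, e4', b4⟩ := h4.log_L hσ
    have hP : 0 ≤ 3 * Deg2.P chi0 (1 + η) + 3 * Deg2.P chi (1 + η) + 4 * Deg2.P f2 (1 + η) +
        Deg2.P f4 (1 + η) := by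
      unfold Deg2.P
      rw [← tsum_mul_left, ← tsum_mul_left, ← tsum_mul_left,
        ← Summable.tsum_add ((deg2_chi0.summable_P hσ).mul_left 3) ((deg2_chi.summable_P hσ).mul_left 3),
        ← Summable.tsum_add (((deg2_chi0.summable_P hσ).mul_left 3).add
          ((deg2_chi.summable_P hσ).mul_left 3)) ((h2.summable_P hσ).mul_left 4),
        ← Summable.tsum_add ((((deg2_chi0.summable_P hσ).mul_left 3).add
          ((deg2_chi.summable_P hσ).mul_left 3)).add ((h2.summable_P hσ).mul_left 4))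
          (h4.summable_P hσ)]
      apply tsum_nonneg
      intro p
      have := mul_nonneg (hpos p p.2) (by positivity : (0:ℝ) ≤ ((p : ℕ) : ℝ) ^ (-(1 + η)))
      linarith
    have hl : -(11 * Deg2.K0) ≤ 3 * l0 + 3 * l1 + 4 * l2 + l4 := by
      have := abs_le.1 b0
      have := abs_le.1 b1
      have := abs_le.1 b2
      have := abs_le.1 b4
      linarith [(abs_le.1 b0).1, (abs_le.1 b1).1, (abs_le.1 b2).1, (abs_le.1 b4).1]
    have hexp : c ≤ Real.exp l0 ^ 3 * Real.exp l1 ^ 3 * Real.exp l2 ^ 4 * Real.exp l4 := by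
      rw [← Real.exp_nat_mul, ← Real.exp_nat_mul, ← Real.exp_nat_mul, ← Real.exp_add,
        ← Real.exp_add, ← Real.exp_add]
      apply Real.exp_le_exp.2
      push_cast
      linarith
    have u0 : Real.exp l0 ≤ 2 / η := by
      rw [← e0]
      refine (L_chi0 hη).trans ?_
      rw [show (2:ℝ) / η = 1 / η + 1 / η by ring]
      have : 1 ≤ 1 / η := by rw [le_div_iff₀ hη]; linarith
      linarith
    have u1 : Real.exp l1 ≤ M1 := by
      rw [← e1]
      have := deg2_chi.L_near (by norm_num : (0:ℝ) ≤ 6) chi_L hη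
      have h5 := (abs_le.1 this).2
      have h6 : π / 4 ≤ |π / 4| := le_abs_self _
      nlinarith
    have u2 : Real.exp l2 ≤ 5 * D2 * η := by
      rw [← e2']
      have := h2.L_near hD2 hT2 hη
      have h5 := (abs_le.1 this).2
      linarith
    have u4 : Real.exp l4 ≤ M4 := by
      rw [← e4']
      have := h4.L_near hD4 hT4 hη
      have h5 := (abs_le.1 this).2
      have h6 : L4 ≤ |L4| := le_abs_self _
      nlinarith
    have p0 := Real.exp_pos l0
    have p1 := Real.exp_pos l1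
    have p2 := Real.exp_pos l2
    have p4 := Real.exp_pos l4
    calc c ≤ Real.exp l0 ^ 3 * Real.exp l1 ^ 3 * Real.exp l2 ^ 4 * Real.exp l4 := hexp
      _ ≤ (2 / η) ^ 3 * M1 ^ 3 * (5 * D2 * η) ^ 4 * M4 := by
          gcongr
      _ = C * η := by
          rw [hC]; field_simp
  have hη := key (min 1 (c / (2 * (C + 1)))) (lt_min one_pos (by positivity)) (min_le_left _ _)
  have h5 : C * min 1 (c / (2 * (C + 1))) ≤ C * (c / (2 * (C + 1))) :=
    mul_le_mul_of_nonneg_left (min_le_right _ _) hC0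
  have h6 : C * (c / (2 * (C + 1))) ≤ c / 2 := by
    rw [mul_div_assoc', div_le_div_iff₀ (by positivity) (by norm_num)]
    nlinarith
  linarith

end P004E.H185
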