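import Vale.Agent.P004E.H185.Mt
import Vale.Agent.P004E.H185.Mer

/-!
# Upper bound for sums of nonnegative multiplicative functions
-/

set_option linter.all false

open Finset Real Filter Topology

namespace P004E.H185

/-- nonnegative multiplicative functions bounded by `dv²` at prime powers -/
structure Mf (g : ℕ → ℝ) : Prop where
  nn : ∀ n, 0 ≤ g n
  zero : g 0 = 0
  one : g 1 = 1
  mul : ∀ m n : ℕ, Nat.Coprime m n → g (m * n) = g m * g n
  le : ∀ p k : ℕ, p.Prime → g (p ^ k) ≤ ((k : ℝ) + 1) ^ 2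

/-- `∑ (k+1)² k / 2^k`, tail from `2`. -/
lemma sum_cube (N : ℕ) : ∑ k ∈ Icc 1 N, (((k : ℝ) + 2) ^ 2 * (k + 1)) / 2 ^ (k - 1) ≤ 152 := by
  have key : ∀ N : ℕ, ∑ k ∈ Icc 1 N, (((k : ℝ) + 2) ^ 2 * (k + 1)) / 2 ^ (k - 1) =
      152 - (2 * (N : ℝ) ^ 3 + 22 * (N : ℝ) ^ 2 + 92 * N + 152) / 2 ^ N := by
    intro N
    induction N with
    | zero => norm_num
    | succ N ih =>
      rw [Finset.sum_Icc_succ_top (by omega), Nat.add_sub_cancel, ih]
      push_cast
      rw [pow_succ]
      field_simp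
      ring
  rw [key N]
  have h2 : (0 : ℝ) ≤ (2 * (N : ℝ) ^ 3 + 22 * (N : ℝ) ^ 2 + 92 * N + 152) / 2 ^ N := by positivity
  linarith

/-- weighted log: exact prime powers -/
lemma log_exact {n N : ℕ} (hn : 1 ≤ n) (hnN : n ≤ N) :
    Real.log n = ∑ p ∈ pr N, (n.factorization p : ℝ) * Real.log p := by
  rw [Real.log_nat_eq_sum_factorization, Finsupp.sum]
  apply Finset.sum_subset
  · intro p hp
    rw [Nat.support_factorization] at hp
    exact mem_pr.2 ⟨Nat.prime_of_mem_primeFactors hp, (Nat.le_of_mem_primeFactors hp).trans hnN⟩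
  · intro p _ hp
    have : n.factorization p = 0 := Finsupp.notMem_support_iff.1 hp
    rw [this]; simp

namespace Mf

variable {g : ℕ → ℝ} (h : Mf g)
include h

/-- one prime -/
lemma one_prime {p : ℕ} (hp : p.Prime) (N : ℕ) :
    ∑ n ∈ Icc 1 N, g n * ((n.factorization p : ℝ) * Real.log p) ≤
      ∑ k ∈ Icc 1 N, g (p ^ k) * (k * Real.log p) * S g (N / p ^ k) := by
  have hlp : 0 ≤ Real.log p := Real.log_natCast_nonneg p
  have h1 : ∀ n ∈ Icc 1 N, g n * ((n.factorization p : ℝ) * Real.log p) ≤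
      ∑ k ∈ Icc 1 N, if p ^ k ∣ n then g (p ^ k) * (k * Real.log p) * g (n / p ^ k) else 0 := by
    intro n hn
    rw [Finset.mem_Icc] at hn
    have hnn : ∀ k ∈ Icc 1 N, 0 ≤
        (if p ^ k ∣ n then g (p ^ k) * (k * Real.log p) * g (n / p ^ k) else 0) := by
      intro k _
      split_ifs
      · have := h.nn (p ^ k); have := h.nn (n / p ^ k); positivity
      · exact le_rfl
    rcases Nat.eq_zero_or_pos (n.factorization p) with h0 | h0
    · rw [h0]; simp only [Nat.cast_zero, zero_mul, mul_zero]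
      exact Finset.sum_nonneg hnn
    · have hk : n.factorization p ∈ Icc 1 N := by
        rw [Finset.mem_Icc]
        have := Nat.factorization_lt (n := n) p (by omega)
        omega
      refine le_trans ?_ (Finset.single_le_sum hnn hk)
      have hd : p ^ n.factorization p ∣ n := Nat.ordProj_dvd n p
      rw [if_pos hd]
      have hc : Nat.Coprime (p ^ n.factorization p) (n / p ^ n.factorization p) := by
        apply Nat.Coprime.pow_left
        exact Nat.coprime_ordCompl hp (by omega)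
      have e1 : g n = g (p ^ n.factorization p) * g (n / p ^ n.factorization p) := by
        rw [← h.mul _ _ hc, Nat.mul_div_cancel' hd]
      rw [e1]
      apply le_of_eq; ring
  refine (Finset.sum_le_sum h1).trans ?_
  rw [Finset.sum_comm]
  apply Finset.sum_le_sum
  intro k hk
  have hd : 1 ≤ p ^ k := Nat.one_le_iff_ne_zero.2 (pow_ne_zero _ hp.ne_zero)
  rw [sum_dvd N (p ^ k) hd (fun n => g (p ^ k) * (k * Real.log p) * g (n / p ^ k)), S, Finset.mul_sum]
  apply le_of_eq
  apply Finset.sum_congr rfl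
  intro m _
  rw [Nat.mul_div_cancel_left _ (by omega)]

lemma S_nonneg (n : ℕ) : 0 ≤ S g n := Finset.sum_nonneg fun _ _ => h.nn _

lemma T_nonneg (n : ℕ) : 0 ≤ T g n :=
  Finset.sum_nonneg fun _ _ => div_nonneg (h.nn _) (Nat.cast_nonneg _)

lemma T_mono {m n : ℕ} (hmn : m ≤ n) : T g m ≤ T g n := by
  apply Finset.sum_le_sum_of_subset_of_nonneg (Finset.Icc_subset_Icc_right hmn)
  intro i _ _
  exact div_nonneg (h.nn _) (Nat.cast_nonneg _)

/-- Rankin -/
lemma S_le_T (N d : ℕ) (hd : 1 ≤ d) : S g (N / d) ≤ N / d * T g N := by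
  have hd0 : (0 : ℝ) < d := by exact_mod_cast hd
  calc S g (N / d) ≤ ∑ m ∈ Icc 1 (N / d), (N / d : ℝ) * (g m / m) := by
        apply Finset.sum_le_sum
        intro m hm
        rw [Finset.mem_Icc] at hm
        have hm0 : (0 : ℝ) < m := by exact_mod_cast hm.1
        have h1 : (d : ℝ) * m ≤ N := by
          have : d * m ≤ N := le_trans (Nat.mul_le_mul_left d hm.2) (Nat.mul_div_le N d)
          exact_mod_cast this
        have h2 : 1 ≤ (N / d : ℝ) / m := by
          rw [div_div, le_div_iff₀ (by positivity)]; linarith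
        calc g m = g m * 1 := by ring
          _ ≤ g m * ((N / d : ℝ) / m) := mul_le_mul_of_nonneg_left h2 (h.nn m)
          _ = _ := by ring
    _ = (N / d : ℝ) * T g (N / d) := by rw [T, Finset.mul_sum]
    _ ≤ _ := mul_le_mul_of_nonneg_left (T_mono h (Nat.div_le_self _ _)) (by positivity)

/-- the log sum -/
lemma sum_log_le (N : ℕ) : ∑ n ∈ Icc 1 N, g n * Real.log n ≤
    (4 * Real.log 4 + 3040) * (N * T g N) := by
  have e1 : ∑ n ∈ Icc 1 N, g n * Real.log n =
      ∑ p ∈ pr N, ∑ n ∈ Icc 1 N, g n * ((n.factorization p : ℝ) * Real.log p) := by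
    rw [Finset.sum_comm]
    apply Finset.sum_congr rfl
    intro n hn
    rw [Finset.mem_Icc] at hn
    rw [log_exact hn.1 hn.2, Finset.mul_sum]
  rcases Nat.eq_zero_or_pos N with rfl | hN
  · simp
  obtain ⟨M, rfl⟩ : ∃ M, N = M + 1 := ⟨N - 1, by omega⟩
  have hTN := T_nonneg h (M + 1)
  have hNT : 0 ≤ ((M + 1 : ℕ) : ℝ) * T g (M + 1) := by positivity
  -- k = 1
  have a1 : ∑ p ∈ pr (M + 1), g (p ^ 1) * (((1 : ℕ) : ℝ) * Real.log p) * S g ((M + 1) / p ^ 1) ≤
      4 * Real.log 4 * (((M + 1 : ℕ) : ℝ) * T g (M + 1)) := by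
    have b1 : ∀ p ∈ pr (M + 1), g (p ^ 1) * (((1 : ℕ) : ℝ) * Real.log p) * S g ((M + 1) / p ^ 1) ≤
        ∑ m ∈ Icc 1 (M + 1), g m * (if p * m ≤ M + 1 then 4 * Real.log p else 0) := by
      intro p hp
      have hp1 := (mem_pr.1 hp).1
      have hlp : 0 ≤ Real.log p := Real.log_natCast_nonneg p
      have h2 := h.le p 1 hp1
      have h3 : g (p ^ 1) * (((1 : ℕ) : ℝ) * Real.log p) ≤ 4 * Real.log p := by
        norm_num at h2 ⊢
        exact mul_le_mul_of_nonneg_right h2 hlp
      have h4 : S g ((M + 1) / p ^ 1) = ∑ m ∈ Icc 1 (M + 1), if p * m ≤ M + 1 then g m else 0 := by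
        rw [S, ← Finset.sum_filter, pow_one]
        apply Finset.sum_congr _ fun _ _ => rfl
        ext m
        simp only [mem_Icc, mem_filter]
        rw [Nat.le_div_iff_mul_le hp1.pos, mul_comm m p]
        constructor
        · rintro ⟨c1, c2⟩
          exact ⟨⟨c1, le_trans (Nat.le_mul_of_pos_left m hp1.pos) c2⟩, c2⟩
        · rintro ⟨⟨c1, c2⟩, c3⟩; exact ⟨c1, c3⟩
      calc g (p ^ 1) * (((1 : ℕ) : ℝ) * Real.log p) * S g ((M + 1) / p ^ 1)
          ≤ 4 * Real.log p * S g ((M + 1) / p ^ 1) :=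
            mul_le_mul_of_nonneg_right h3 (S_nonneg h _)
        _ = _ := by
            rw [h4, Finset.mul_sum]
            apply Finset.sum_congr rfl
            intro m _
            split_ifs <;> ring
    refine (Finset.sum_le_sum b1).trans ?_
    rw [Finset.sum_comm, T, Finset.mul_sum, Finset.mul_sum]
    apply Finset.sum_le_sum
    intro m hm
    rw [Finset.mem_Icc] at hm
    have hm0 : (0 : ℝ) < m := by exact_mod_cast hm.1
    rw [← Finset.mul_sum]
    have h5 : ∑ p ∈ pr (M + 1), (if p * m ≤ M + 1 then 4 * Real.log p else 0) ≤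
        4 * (Real.log 4 * (((M + 1 : ℕ) : ℝ) / m)) := by
      have h6 := Chebyshev.theta_le_log4_mul_x (x := ((M + 1 : ℕ) : ℝ) / m) (by positivity)
      have h7 : ∑ p ∈ pr (M + 1), (if p * m ≤ M + 1 then 4 * Real.log p else 0) =
          4 * Chebyshev.theta (((M + 1 : ℕ) : ℝ) / m) := by
        unfold Chebyshev.theta
        rw [Nat.floor_div_natCast, Nat.floor_natCast, Finset.mul_sum, ← Finset.sum_filter]
        apply Finset.sum_congr _ fun _ _ => rfl
        ext p
        simp only [mem_filter, mem_pr, mem_Ioc]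
        rw [Nat.le_div_iff_mul_le (by omega)]
        constructor
        · rintro ⟨⟨c1, c2⟩, c3⟩; exact ⟨⟨c1.pos, c3⟩, c1⟩
        · rintro ⟨⟨c1, c2⟩, c3⟩
          exact ⟨⟨c3, le_trans (Nat.le_mul_of_pos_right p (by omega)) c2⟩, c2⟩
      rw [h7]
      linarith
    calc g m * ∑ p ∈ pr (M + 1), (if p * m ≤ M + 1 then 4 * Real.log p else 0)
        ≤ g m * (4 * (Real.log 4 * (((M + 1 : ℕ) : ℝ) / m))) :=
          mul_le_mul_of_nonneg_left h5 (h.nn m)
      _ = _ := by field_simp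
  -- k ≥ 2
  have a2 : ∑ p ∈ pr (M + 1), ∑ k ∈ Icc 1 M, g (p ^ (k + 1)) * (((k + 1 : ℕ) : ℝ) * Real.log p) *
      S g ((M + 1) / p ^ (k + 1)) ≤ 3040 * (((M + 1 : ℕ) : ℝ) * T g (M + 1)) := by
    have b1 : ∀ p ∈ pr (M + 1), ∑ k ∈ Icc 1 M, g (p ^ (k + 1)) *
        (((k + 1 : ℕ) : ℝ) * Real.log p) * S g ((M + 1) / p ^ (k + 1)) ≤
        152 * (((M + 1 : ℕ) : ℝ) * T g (M + 1)) * (Real.log p / (p : ℝ) ^ 2) := by
      intro p hp
      have hp1 := (mem_pr.1 hp).1
      have hp2 : (2 : ℝ) ≤ p := by exact_mod_cast hp1.two_le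
      have hp0 : (0 : ℝ) < p := by linarith
      have hlp : 0 ≤ Real.log p := Real.log_natCast_nonneg p
      calc ∑ k ∈ Icc 1 M, g (p ^ (k + 1)) * (((k + 1 : ℕ) : ℝ) * Real.log p) *
            S g ((M + 1) / p ^ (k + 1))
          ≤ ∑ k ∈ Icc 1 M, (((k : ℝ) + 2) ^ 2 * (k + 1)) / 2 ^ (k - 1) *
            ((((M + 1 : ℕ) : ℝ) * T g (M + 1)) * (Real.log p / (p : ℝ) ^ 2)) := by
            apply Finset.sum_le_sum
            intro k hk
            have hk1 := (Finset.mem_Icc.1 hk).1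
            obtain ⟨i, rfl⟩ : ∃ i, k = i + 1 := ⟨k - 1, by omega⟩
            have c1 := h.le p (i + 1 + 1) hp1
            have c2 := S_le_T h (M + 1) (p ^ (i + 1 + 1))
              (Nat.one_le_iff_ne_zero.2 (pow_ne_zero _ hp1.ne_zero))
            have c3 : (p : ℝ) ^ 2 * 2 ^ i ≤ (p : ℝ) ^ (i + 1 + 1) := by
              rw [show i + 1 + 1 = 2 + i by ring, pow_add]
              exact mul_le_mul_of_nonneg_left (pow_le_pow_left₀ (by norm_num) hp2 i) (by positivity)
            have c4 : ((M + 1 : ℕ) : ℝ) / ((p ^ (i + 1 + 1) : ℕ) : ℝ) ≤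
                ((M + 1 : ℕ) : ℝ) / ((p : ℝ) ^ 2 * 2 ^ i) := by
              push_cast
              exact div_le_div_of_nonneg_left (by positivity) (by positivity) c3
            have c5 : S g ((M + 1) / p ^ (i + 1 + 1)) ≤
                ((M + 1 : ℕ) : ℝ) / ((p : ℝ) ^ 2 * 2 ^ i) * T g (M + 1) :=
              c2.trans (mul_le_mul_of_nonneg_right c4 hTN)
            calc g (p ^ (i + 1 + 1)) * (((i + 1 + 1 : ℕ) : ℝ) * Real.log p) *
                  S g ((M + 1) / p ^ (i + 1 + 1))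
                ≤ ((((i + 1 + 1 : ℕ) : ℝ) + 1) ^ 2 * (((i + 1 + 1 : ℕ) : ℝ) * Real.log p)) *
                  (((M + 1 : ℕ) : ℝ) / ((p : ℝ) ^ 2 * 2 ^ i) * T g (M + 1)) := by
                  apply mul_le_mul _ c5 (S_nonneg h _) (by positivity)
                  exact mul_le_mul_of_nonneg_right c1 (by positivity)
              _ = _ := by
                  rw [Nat.add_sub_cancel]
                  push_cast
                  field_simp
                  ring
        _ = (∑ k ∈ Icc 1 M, (((k : ℝ) + 2) ^ 2 * (k + 1)) / 2 ^ (k - 1)) *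
            ((((M + 1 : ℕ) : ℝ) * T g (M + 1)) * (Real.log p / (p : ℝ) ^ 2)) := by
            rw [Finset.sum_mul]
        _ ≤ 152 * ((((M + 1 : ℕ) : ℝ) * T g (M + 1)) * (Real.log p / (p : ℝ) ^ 2)) :=
            mul_le_mul_of_nonneg_right (sum_cube M) (by positivity)
        _ = _ := by ring
    refine (Finset.sum_le_sum b1).trans ?_
    rw [← Finset.mul_sum]
    calc 152 * (((M + 1 : ℕ) : ℝ) * T g (M + 1)) * ∑ p ∈ pr (M + 1), Real.log p / (p : ℝ) ^ 2
        ≤ 152 * (((M + 1 : ℕ) : ℝ) * T g (M + 1)) * 20 :=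
          mul_le_mul_of_nonneg_left (sum_log_sq _) (by positivity)
      _ = _ := by ring
  rw [e1]
  calc ∑ p ∈ pr (M + 1), ∑ n ∈ Icc 1 (M + 1), g n * ((n.factorization p : ℝ) * Real.log p)
      ≤ ∑ p ∈ pr (M + 1), ∑ k ∈ Icc 1 (M + 1), g (p ^ k) * (k * Real.log p) *
          S g ((M + 1) / p ^ k) :=
        Finset.sum_le_sum fun p hp => one_prime h (mem_pr.1 hp).1 (M + 1)
    _ = ∑ p ∈ pr (M + 1), (g (p ^ 1) * (((1 : ℕ) : ℝ) * Real.log p) * S g ((M + 1) / p ^ 1) +
          ∑ k ∈ Icc 1 M, g (p ^ (k + 1)) * (((k + 1 : ℕ) : ℝ) * Real.log p) *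
            S g ((M + 1) / p ^ (k + 1))) := by
        apply Finset.sum_congr rfl
        intro p _
        exact sum_shift (fun k => g (p ^ k) * (k * Real.log p) * S g ((M + 1) / p ^ k)) M
    _ ≤ (4 * Real.log 4 + 3040) * (((M + 1 : ℕ) : ℝ) * T g (M + 1)) := by
        rw [Finset.sum_add_distrib]
        linarith

/-- `S log N ≤ C N T` -/
lemma S_log_le (N : ℕ) : S g N * Real.log N ≤ (4 * Real.log 4 + 3041) * (N * T g N) := by
  have h1 := sum_log_le h N
  have h2 : S g N * Real.log N - ∑ n ∈ Icc 1 N, g n * Real.log n ≤ N * T g N := by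
    rw [S, Finset.sum_mul, ← Finset.sum_sub_distrib, T, Finset.mul_sum]
    apply Finset.sum_le_sum
    intro n hn
    rw [Finset.mem_Icc] at hn
    have hn0 : (0 : ℝ) < n := by exact_mod_cast hn.1
    have hN0 : (0 : ℝ) < N := by exact_mod_cast lt_of_lt_of_le hn.1 hn.2
    rw [← mul_sub, ← Real.log_div hN0.ne' hn0.ne']
    have h3 : Real.log (N / n) ≤ N / n := by
      have := Real.log_le_sub_one_of_pos (x := (N : ℝ) / n) (by positivity)
      linarith
    calc g n * Real.log (N / n) ≤ g n * (N / n) := mul_le_mul_of_nonneg_left h3 (h.nn n)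
      _ = _ := by ring
  linarith

end Mf

end P004E.H185
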