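import Vale.Agent.P004E.H185.Sum0

/-!
# Upper bound for sums of nonnegative multiplicative functions, II
-/

set_option linter.all false

open Finset Real Filter Topology

namespace P004E.H185

lemma sum_sq_range (N : ℕ) : ∑ k ∈ Finset.range N, ((k : ℝ) + 3) ^ 2 / 2 ^ k ≤ 36 := by
  have key : ∀ N : ℕ, ∑ k ∈ Finset.range N, ((k : ℝ) + 3) ^ 2 / 2 ^ k =
      36 - (2 * (N : ℝ) ^ 2 + 16 * N + 36) / 2 ^ N := by
    intro N
    induction N with
    | zero => norm_num
    | succ N ih =>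
      rw [Finset.sum_range_succ, ih]
      push_cast
      rw [pow_succ]
      field_simp
      ring
  rw [key N]
  have h2 : (0 : ℝ) ≤ (2 * (N : ℝ) ^ 2 + 16 * N + 36) / 2 ^ N := by positivity
  linarith

lemma summable_sq : Summable (fun k : ℕ => ((k : ℝ) + 3) ^ 2 / 2 ^ k) :=
  summable_of_sum_range_le (fun _ => by positivity) sum_sq_range

lemma tsum_sq : ∑' k : ℕ, ((k : ℝ) + 3) ^ 2 / 2 ^ k ≤ 36 :=
  Real.tsum_le_of_sum_range_le (fun _ => by positivity) sum_sq_range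

namespace Mf

variable {g : ℕ → ℝ} (h : Mf g)
include h

lemma tail_le {p : ℕ} (hp : p.Prime) (k : ℕ) :
    g (p ^ (k + 2)) / ((p ^ (k + 2) : ℕ) : ℝ) ≤ 1 / (p : ℝ) ^ 2 * (((k : ℝ) + 3) ^ 2 / 2 ^ k) := by
  have hp2 : (2 : ℝ) ≤ p := by exact_mod_cast hp.two_le
  have hp0 : (0 : ℝ) < p := by linarith
  have c1 := h.le p (k + 2) hp
  have c3 : (p : ℝ) ^ 2 * 2 ^ k ≤ (p : ℝ) ^ (k + 2) := by
    rw [show k + 2 = 2 + k by ring, pow_add]
    exact mul_le_mul_of_nonneg_left (pow_le_pow_left₀ (by norm_num) hp2 k) (by positivity)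
  calc g (p ^ (k + 2)) / ((p ^ (k + 2) : ℕ) : ℝ)
      ≤ (((k + 2 : ℕ) : ℝ) + 1) ^ 2 / ((p : ℝ) ^ 2 * 2 ^ k) := by
        push_cast at c1 ⊢
        exact div_le_div₀ (by positivity) c1 (by positivity) c3
    _ = _ := by push_cast; field_simp; ring

lemma local_sum {p : ℕ} (hp : p.Prime) :
    Summable (fun k : ℕ => ‖g (p ^ k) / ((p ^ k : ℕ) : ℝ)‖) ∧
    ∑' k : ℕ, g (p ^ k) / ((p ^ k : ℕ) : ℝ) ≤ 1 + (g p / p + 36 / (p : ℝ) ^ 2) := by
  have hp0 : (0 : ℝ) < p := by exact_mod_cast hp.pos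
  have hnn : ∀ k : ℕ, 0 ≤ g (p ^ k) / ((p ^ k : ℕ) : ℝ) := fun k =>
    div_nonneg (h.nn _) (Nat.cast_nonneg _)
  have s2 : Summable (fun k : ℕ => g (p ^ (k + 2)) / ((p ^ (k + 2) : ℕ) : ℝ)) :=
    Summable.of_nonneg_of_le (fun k => hnn _) (fun k => tail_le h hp k) (summable_sq.mul_left _)
  have s0 : Summable (fun k : ℕ => g (p ^ k) / ((p ^ k : ℕ) : ℝ)) :=
    (summable_nat_add_iff (f := fun k : ℕ => g (p ^ k) / ((p ^ k : ℕ) : ℝ)) 2).1 s2
  refine ⟨s0.norm, ?_⟩
  have t1 := s0.sum_add_tsum_nat_add 2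
  rw [← t1, Finset.sum_range_succ, Finset.sum_range_one]
  have t2 : ∑' k : ℕ, g (p ^ (k + 2)) / ((p ^ (k + 2) : ℕ) : ℝ) ≤ 36 / (p : ℝ) ^ 2 := by
    calc ∑' k : ℕ, g (p ^ (k + 2)) / ((p ^ (k + 2) : ℕ) : ℝ)
        ≤ ∑' k : ℕ, 1 / (p : ℝ) ^ 2 * (((k : ℝ) + 3) ^ 2 / 2 ^ k) :=
          s2.tsum_le_tsum (fun k => tail_le h hp k) (summable_sq.mul_left _)
      _ = 1 / (p : ℝ) ^ 2 * ∑' k : ℕ, (((k : ℝ) + 3) ^ 2 / 2 ^ k) := tsum_mul_left
      _ ≤ 1 / (p : ℝ) ^ 2 * 36 := mul_le_mul_of_nonneg_left tsum_sq (by positivity)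
      _ = _ := by ring
  simp only [pow_zero, pow_one, Nat.cast_one, div_one, h.one]
  linarith

lemma sum_inv_sq (N : ℕ) : ∑ p ∈ pr N, 36 / (p : ℝ) ^ 2 ≤ 72 := by
  calc ∑ p ∈ pr N, 36 / (p : ℝ) ^ 2 ≤ ∑ n ∈ Icc 1 N, 36 * (n : ℝ) ^ (-1 - 1 : ℝ) := by
        refine (Finset.sum_le_sum_of_subset_of_nonneg (t := Icc 1 N) ?_ ?_).trans (le_of_eq ?_)
        · intro p hp; rw [mem_pr] at hp; rw [mem_Icc]; exact ⟨hp.1.one_lt.le, hp.2⟩
        · intro i _ _; positivity
        · apply Finset.sum_congr rfl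
          intro n hn
          rw [show (-1 - 1 : ℝ) = -((2 : ℕ) : ℝ) by norm_num, Real.rpow_neg (by positivity),
            Real.rpow_natCast, div_eq_mul_inv]
    _ = 36 * ∑ n ∈ Icc 1 N, (n : ℝ) ^ (-1 - 1 : ℝ) := by rw [Finset.mul_sum]
    _ ≤ 72 := by
        have h1 := sum_rpow_Icc (a := 1) (by norm_num) N
        calc 36 * ∑ n ∈ Icc 1 N, (n : ℝ) ^ (-1 - 1 : ℝ) ≤ 36 * (1 + 1 / 1) :=
              mul_le_mul_of_nonneg_left h1 (by norm_num)
          _ = 72 := by norm_num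

lemma T_le_exp (N : ℕ) : T g N ≤ Real.exp (∑ p ∈ pr N, g p / p + 72) := by
  set F : ℕ → ℝ := fun n => g n / n with hF
  have hF1 : F 1 = 1 := by simp [hF, h.one]
  have hFmul : ∀ {m n : ℕ}, Nat.Coprime m n → F (m * n) = F m * F n := by
    intro m n hmn
    simp only [hF]
    rw [h.mul m n hmn, Nat.cast_mul]; ring
  have h1 := (EulerProduct.summable_and_hasSum_smoothNumbers_prod_primesBelow_tsum hF1 hFmul
    (fun {p} hp => (local_sum h hp).1) (N + 1)).2
  have h2 := (hasSum_subtype_iff_indicator (s := (N + 1).smoothNumbers) (f := F)).1 h1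
  have h3 : T g N ≤ ∏ p ∈ (N + 1).primesBelow, ∑' k : ℕ, F (p ^ k) := by
    have h4 := sum_le_hasSum (Icc 1 N) (fun n _ => Set.indicator_nonneg
      (fun n _ => div_nonneg (h.nn n) (Nat.cast_nonneg n)) n) h2
    refine le_trans (le_of_eq ?_) h4
    unfold T
    apply Finset.sum_congr rfl
    intro n hn
    rw [Finset.mem_Icc] at hn
    rw [Set.indicator_of_mem]
    rw [Nat.mem_smoothNumbers]
    refine ⟨by omega, fun p hp => ?_⟩
    have := Nat.le_of_mem_primeFactorsList hp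
    omega
  have h5 : (N + 1).primesBelow = pr N := by
    ext p
    rw [Nat.mem_primesBelow, mem_pr]
    constructor
    · rintro ⟨h6, h7⟩; exact ⟨h7, by omega⟩
    · rintro ⟨h6, h7⟩; exact ⟨by omega, h6⟩
  rw [h5] at h3
  refine h3.trans ?_
  calc ∏ p ∈ pr N, ∑' k : ℕ, F (p ^ k) ≤ ∏ p ∈ pr N, Real.exp (g p / p + 36 / (p : ℝ) ^ 2) := by
        apply Finset.prod_le_prod
        · intro p _
          exact tsum_nonneg fun k => div_nonneg (h.nn _) (Nat.cast_nonneg _)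
        · intro p hp
          have h6 := (local_sum h (mem_pr.1 hp).1).2
          refine h6.trans ?_
          have := Real.add_one_le_exp (g p / p + 36 / (p : ℝ) ^ 2)
          linarith
    _ = Real.exp (∑ p ∈ pr N, (g p / p + 36 / (p : ℝ) ^ 2)) := (Real.exp_sum _ _).symm
    _ ≤ _ := by
        apply Real.exp_le_exp.2
        rw [Finset.sum_add_distrib]
        have := sum_inv_sq h N
        linarith

/-- from `∑ g(p) log p / p ≤ log N + C` to `∑ g(p)/p ≤ log log (N+1) + C'`. -/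
lemma sum_div_le {C : ℝ} (hC : 0 ≤ C)
    (hM : ∀ N : ℕ, 1 ≤ N → ∑ p ∈ pr N, g p * Real.log p / p ≤ Real.log N + C) :
    ∀ N : ℕ, 1 ≤ N → ∑ p ∈ pr N, g p / p ≤
      Real.log (Real.log ((N + 1 : ℕ) : ℝ)) - Real.log (Real.log 2) + 1 + 2 * C / Real.log 2 := by
  intro N hN
  set a : ℕ → ℝ := fun n => if n.Prime then g n * Real.log n / n else 0 with ha
  set w : ℕ → ℝ := fun n => 1 / Real.log ((max n 2 : ℕ) : ℝ) with hw
  have hl2 : 0 < Real.log 2 := Real.log_pos (by norm_num)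
  have hlm : ∀ n : ℕ, 0 < Real.log ((max n 2 : ℕ) : ℝ) := fun n =>
    Real.log_pos (by exact_mod_cast (lt_of_lt_of_le one_lt_two (le_max_right n 2)))
  have hSa : ∀ n, S a n = ∑ p ∈ pr n, g p * Real.log p / p := by
    intro n
    simp only [S, ha, pr]
    rw [Finset.sum_filter]
  have hSn : ∀ n, 0 ≤ S a n := by
    intro n
    rw [hSa]
    apply Finset.sum_nonneg
    intro p _
    have := h.nn p
    have := Real.log_natCast_nonneg p
    positivity
  have e1 : ∑ p ∈ pr N, g p / p = ∑ n ∈ Icc 1 N, a n * w n := by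
    simp only [ha, hw, pr]
    rw [Finset.sum_filter]
    apply Finset.sum_congr rfl
    intro n hn
    by_cases hp : n.Prime
    · rw [if_pos hp, if_pos hp, max_eq_left hp.two_le]
      have : Real.log (n : ℝ) ≠ 0 := (Real.log_pos (by exact_mod_cast hp.one_lt)).ne'
      have : (n : ℝ) ≠ 0 := by exact_mod_cast hp.ne_zero
      field_simp
    · rw [if_neg hp, if_neg hp, zero_mul]
  have e2 := abel a w N
  have hstep : ∀ M : ℕ, ∑ n ∈ Icc 1 (M + 1), S a n * (w n - w (n + 1)) ≤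
      Real.log (Real.log ((M + 2 : ℕ) : ℝ)) - Real.log (Real.log 2) + C * (w 1 - w (M + 2)) := by
    intro M
    induction M with
    | zero =>
      simp only [zero_add, Finset.Icc_self, Finset.sum_singleton, hw]
      norm_num
    | succ M ih =>
      rw [Finset.sum_Icc_succ_top (by omega)]
      have hn2 : 2 ≤ M + 2 := by omega
      have c1 : S a (M + 2) ≤ Real.log ((M + 2 : ℕ) : ℝ) + C := by
        rw [hSa]; exact hM (M + 2) (by omega)
      have u1 : 0 < Real.log ((M + 2 : ℕ) : ℝ) := Real.log_pos (by exact_mod_cast (by omega : 1 < M + 2))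
      have u2 : 0 < Real.log ((M + 3 : ℕ) : ℝ) := Real.log_pos (by exact_mod_cast (by omega : 1 < M + 3))
      have w1 : w (M + 2) = 1 / Real.log ((M + 2 : ℕ) : ℝ) := by
        simp only [hw]; rw [max_eq_left hn2]
      have w2 : w (M + 3) = 1 / Real.log ((M + 3 : ℕ) : ℝ) := by
        simp only [hw]; rw [max_eq_left (by omega)]
      have u3 : Real.log ((M + 2 : ℕ) : ℝ) ≤ Real.log ((M + 3 : ℕ) : ℝ) :=
        Real.log_le_log (by positivity) (by push_cast; linarith)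
      have c2 : 0 ≤ w (M + 2) - w (M + 3) := by
        rw [w1, w2]
        have := one_div_le_one_div_of_le u1 u3
        linarith
      have c3 : Real.log ((M + 2 : ℕ) : ℝ) * (w (M + 2) - w (M + 3)) ≤
          Real.log (Real.log ((M + 3 : ℕ) : ℝ)) - Real.log (Real.log ((M + 2 : ℕ) : ℝ)) := by
        rw [w1, w2]
        have c4 := Real.log_le_sub_one_of_pos
          (x := Real.log ((M + 2 : ℕ) : ℝ) / Real.log ((M + 3 : ℕ) : ℝ)) (by positivity)
        rw [Real.log_div u1.ne' u2.ne'] at c4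
        have c5 : Real.log ((M + 2 : ℕ) : ℝ) *
            (1 / Real.log ((M + 2 : ℕ) : ℝ) - 1 / Real.log ((M + 3 : ℕ) : ℝ)) =
            1 - Real.log ((M + 2 : ℕ) : ℝ) / Real.log ((M + 3 : ℕ) : ℝ) := by
          field_simp
        rw [c5]; linarith
      have c6 : S a (M + 2) * (w (M + 2) - w (M + 3)) ≤
          (Real.log ((M + 2 : ℕ) : ℝ) + C) * (w (M + 2) - w (M + 3)) :=
        mul_le_mul_of_nonneg_right c1 c2
      have c7 : (Real.log ((M + 2 : ℕ) : ℝ) + C) * (w (M + 2) - w (M + 3)) =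
        Real.log ((M + 2 : ℕ) : ℝ) * (w (M + 2) - w (M + 3)) + C * (w (M + 2) - w (M + 3)) := by ring
      have c8 : C * (w 1 - w (M + 1 + 2)) = C * (w 1 - w (M + 2)) + C * (w (M + 2) - w (M + 3)) := by
        rw [show M + 1 + 2 = M + 3 by ring]; ring
      rw [c8]
      rw [show M + 1 + 1 = M + 2 by ring, show M + 2 + 1 = M + 3 by ring,
        show M + 1 + 2 = M + 3 by ring]
      linarith
  obtain ⟨M, rfl⟩ : ∃ M, N = M + 1 := ⟨N - 1, by omega⟩
  have e3 := hstep M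
  have w0 : w 1 = 1 / Real.log 2 := by simp [hw]
  have w3 : w (M + 2) = 1 / Real.log ((M + 2 : ℕ) : ℝ) := by
    simp only [hw]; rw [max_eq_left (by omega)]
  have u1 : 0 < Real.log ((M + 2 : ℕ) : ℝ) := Real.log_pos (by exact_mod_cast (by omega : 1 < M + 2))
  have u0 : Real.log 2 ≤ Real.log ((M + 2 : ℕ) : ℝ) :=
    Real.log_le_log (by norm_num) (by push_cast; linarith [(Nat.cast_nonneg M : (0:ℝ) ≤ M)])
  have e4 : S a (M + 1) * w (M + 1 + 1) ≤ 1 + C / Real.log 2 := by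
    have c1 : S a (M + 1) ≤ Real.log ((M + 1 : ℕ) : ℝ) + C := by
      rw [hSa]; exact hM (M + 1) (by omega)
    have c2 : Real.log ((M + 1 : ℕ) : ℝ) ≤ Real.log ((M + 2 : ℕ) : ℝ) :=
      Real.log_le_log (by positivity) (by push_cast; linarith)
    rw [show M + 1 + 1 = M + 2 by ring, w3, mul_one_div, div_le_iff₀ u1]
    have c3 : C ≤ C / Real.log 2 * Real.log ((M + 2 : ℕ) : ℝ) := by
      rw [div_mul_eq_mul_div, le_div_iff₀ hl2]
      exact mul_le_mul_of_nonneg_left u0 hC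
    nlinarith
  have e5 : C * (w 1 - w (M + 2)) ≤ C / Real.log 2 := by
    rw [w0, w3]
    have : 0 ≤ C * (1 / Real.log ((M + 2 : ℕ) : ℝ)) := by positivity
    have e6 : C * (1 / Real.log 2 - 1 / Real.log ((M + 2 : ℕ) : ℝ)) = C / Real.log 2 -
      C * (1 / Real.log ((M + 2 : ℕ) : ℝ)) := by ring
    linarith
  have e7 : 2 * C / Real.log 2 = C / Real.log 2 + C / Real.log 2 := by ring
  rw [e1, e2, e7]
  rw [show M + 1 + 1 = M + 2 by ring] at e4 ⊢
  linarith

/-- `∑_{n ≤ N} g(n) ≤ C N`. -/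
theorem S_le {C : ℝ} (hC : 0 ≤ C)
    (hM : ∀ N : ℕ, 1 ≤ N → ∑ p ∈ pr N, g p * Real.log p / p ≤ Real.log N + C) :
    ∃ K : ℝ, 1 ≤ K ∧ ∀ N : ℕ, S g N ≤ K * N := by
  have hl2 : 0 < Real.log 2 := Real.log_pos (by norm_num)
  set E : ℝ := Real.exp (- Real.log (Real.log 2) + 1 + 2 * C / Real.log 2 + 72) with hE
  have hE0 : 0 < E := Real.exp_pos _
  have hT : ∀ N : ℕ, 1 ≤ N → T g N ≤ E * Real.log ((N + 1 : ℕ) : ℝ) := by
    intro N hN
    have h1 := T_le_exp h N
    have h2 := sum_div_le h hC hM N hN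
    have hl : 0 < Real.log ((N + 1 : ℕ) : ℝ) := Real.log_pos (by exact_mod_cast (by omega : 1 < N + 1))
    calc T g N ≤ _ := h1
      _ ≤ Real.exp ((- Real.log (Real.log 2) + 1 + 2 * C / Real.log 2 + 72) +
            Real.log (Real.log ((N + 1 : ℕ) : ℝ))) := Real.exp_le_exp.2 (by linarith)
      _ = _ := by rw [Real.exp_add, Real.exp_log hl]
  set c : ℝ := 4 * Real.log 4 + 3041 with hc
  have hlog4 : 0 < Real.log 4 := Real.log_pos (by norm_num)
  have hc0 : 0 < c := by positivity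
  refine ⟨2 * c * E + 1, by linarith [mul_pos hc0 hE0], fun N => ?_⟩
  rcases Nat.eq_zero_or_pos N with rfl | hN
  · simp
  rcases Nat.lt_or_ge N 2 with h2 | h2
  · have : N = 1 := by omega
    subst this
    simp only [S, Finset.Icc_self, Finset.sum_singleton, h.one, Nat.cast_one, mul_one]
    linarith [mul_pos hc0 hE0]
  · have hN0 : (0 : ℝ) < N := by exact_mod_cast hN
    have hN2 : (2 : ℝ) ≤ N := by exact_mod_cast h2
    have hlN : 0 < Real.log N := Real.log_pos (by linarith)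
    have h3 := S_log_le h N
    have h4 := hT N hN
    have h5 : Real.log ((N + 1 : ℕ) : ℝ) ≤ 2 * Real.log N := by
      have : (2 : ℝ) * Real.log N = Real.log ((N : ℝ) ^ 2) := by
        rw [Real.log_pow]; norm_num
      rw [this]
      apply Real.log_le_log (by positivity)
      push_cast; nlinarith
    have h6 : S g N * Real.log N ≤ (2 * c * E * N) * Real.log N := by
      calc S g N * Real.log N ≤ c * (N * T g N) := h3
        _ ≤ c * (N * (E * (2 * Real.log N))) := by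
            apply mul_le_mul_of_nonneg_left _ hc0.le
            apply mul_le_mul_of_nonneg_left _ hN0.le
            exact h4.trans (mul_le_mul_of_nonneg_left h5 hE0.le)
        _ = _ := by ring
    have h7 := le_of_mul_le_mul_right h6 hlN
    linarith

end Mf

end P004E.H185
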