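import Vale.Agent.P004E.H185.Abel

/-!
# Convergence of `∑ f(n)/n` with power saving
-/

set_option linter.all false

open Finset Real Filter Topology

namespace P004E.H185

lemma T_eq (f : ℕ → ℝ) (N : ℕ) :
    T f N = S f N * (1 / ((N + 1 : ℕ) : ℝ)) +
      ∑ n ∈ Icc 1 N, S f n * (1 / (n : ℝ) - 1 / ((n + 1 : ℕ) : ℝ)) := by
  have h := abel f (fun n => 1 / (n : ℝ)) N
  rw [← h]
  unfold T
  exact Finset.sum_congr rfl fun k _ => by ring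

lemma inv_sub_le {n : ℕ} (hn : 1 ≤ n) :
    |1 / (n : ℝ) - 1 / ((n + 1 : ℕ) : ℝ)| ≤ 1 / (n : ℝ) ^ 2 := by
  have hn0 : (0 : ℝ) < n := by exact_mod_cast hn
  have h1 : 1 / (n : ℝ) - 1 / ((n + 1 : ℕ) : ℝ) = 1 / ((n : ℝ) * ((n + 1 : ℕ) : ℝ)) := by
    have : ((n + 1 : ℕ) : ℝ) ≠ 0 := by positivity
    field_simp
    push_cast; ring
  rw [h1, abs_of_pos (by positivity)]
  apply one_div_le_one_div_of_le (by positivity)
  rw [sq]
  apply mul_le_mul_of_nonneg_left _ hn0.le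
  push_cast; linarith

lemma pow34 {n : ℕ} (hn : 1 ≤ n) : (n : ℝ) ^ (3 / 4 : ℝ) * (1 / (n : ℝ)) = (n : ℝ) ^ (-(1 / 4) : ℝ) := by
  have hn0 : (0 : ℝ) < n := by exact_mod_cast hn
  rw [one_div, ← Real.rpow_neg_one, ← Real.rpow_add hn0]; norm_num

lemma pow34' {n : ℕ} (hn : 1 ≤ n) :
    (n : ℝ) ^ (3 / 4 : ℝ) * (1 / (n : ℝ) ^ 2) = (n : ℝ) ^ (-1 - (1 / 4) : ℝ) := by
  have hn0 : (0 : ℝ) < n := by exact_mod_cast hn
  rw [one_div, ← Real.rpow_natCast, ← Real.rpow_neg hn0.le, ← Real.rpow_add hn0]; norm_num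

lemma rpow_neg_le {a : ℝ} (ha : 0 ≤ a) {M N : ℕ} (hM : 1 ≤ M) (hMN : M ≤ N) :
    (N : ℝ) ^ (-a) ≤ (M : ℝ) ^ (-a) := by
  have hM0 : (0 : ℝ) < M := by exact_mod_cast hM
  exact Real.rpow_le_rpow_of_nonpos hM0 (by exact_mod_cast hMN) (by linarith)

lemma S_div {f : ℕ → ℝ} {B : ℝ} (hB : 0 ≤ B) (hS : ∀ n : ℕ, |S f n| ≤ B * (n : ℝ) ^ (3 / 4 : ℝ))
    {n : ℕ} (hn : 1 ≤ n) : |S f n * (1 / ((n + 1 : ℕ) : ℝ))| ≤ B * (n : ℝ) ^ (-(1 / 4) : ℝ) := by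
  have hn0 : (0 : ℝ) < n := by exact_mod_cast hn
  rw [abs_mul, ← pow34 hn, ← mul_assoc]
  apply mul_le_mul (hS n) _ (abs_nonneg _) (by positivity)
  rw [abs_of_pos (by positivity)]
  exact one_div_le_one_div_of_le hn0 (by push_cast; linarith)

lemma T_cauchy {f : ℕ → ℝ} {B : ℝ} (hB : 0 ≤ B)
    (hS : ∀ n : ℕ, |S f n| ≤ B * (n : ℝ) ^ (3 / 4 : ℝ)) {M N : ℕ} (hM : 1 ≤ M) (hMN : M ≤ N) :
    |T f N - T f M| ≤ 6 * B * (M : ℝ) ^ (-(1 / 4) : ℝ) := by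
  have hsplit : ∑ n ∈ Icc 1 N, S f n * (1 / (n : ℝ) - 1 / ((n + 1 : ℕ) : ℝ)) =
      ∑ n ∈ Icc 1 M, S f n * (1 / (n : ℝ) - 1 / ((n + 1 : ℕ) : ℝ)) +
      ∑ n ∈ Ioc M N, S f n * (1 / (n : ℝ) - 1 / ((n + 1 : ℕ) : ℝ)) := by
    have h1 : Icc 1 N = Icc 1 M ∪ Ioc M N := by
      ext k; simp only [mem_Icc, mem_union, mem_Ioc]; omega
    rw [h1, Finset.sum_union]
    rw [Finset.disjoint_left]; intro k; simp only [mem_Icc, mem_Ioc]; omega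
  have h2 : T f N - T f M = S f N * (1 / ((N + 1 : ℕ) : ℝ)) - S f M * (1 / ((M + 1 : ℕ) : ℝ)) +
      ∑ n ∈ Ioc M N, S f n * (1 / (n : ℝ) - 1 / ((n + 1 : ℕ) : ℝ)) := by
    rw [T_eq f N, T_eq f M, hsplit]; ring
  have h3 : |∑ n ∈ Ioc M N, S f n * (1 / (n : ℝ) - 1 / ((n + 1 : ℕ) : ℝ))| ≤
      B * (4 * (M : ℝ) ^ (-(1 / 4) : ℝ)) := by
    calc |∑ n ∈ Ioc M N, S f n * (1 / (n : ℝ) - 1 / ((n + 1 : ℕ) : ℝ))|
        ≤ ∑ n ∈ Ioc M N, |S f n * (1 / (n : ℝ) - 1 / ((n + 1 : ℕ) : ℝ))| :=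
          Finset.abs_sum_le_sum_abs _ _
      _ ≤ ∑ n ∈ Ioc M N, B * (n : ℝ) ^ (-1 - (1 / 4) : ℝ) := by
          apply Finset.sum_le_sum
          intro n hn
          have hn1 : 1 ≤ n := by have := (Finset.mem_Ioc.1 hn).1; omega
          rw [abs_mul, ← pow34' hn1, ← mul_assoc]
          exact mul_le_mul (hS n) (inv_sub_le hn1) (abs_nonneg _) (by positivity)
      _ = B * ∑ n ∈ Ioc M N, (n : ℝ) ^ (-1 - (1 / 4) : ℝ) := by rw [Finset.mul_sum]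
      _ ≤ B * (4 * (M : ℝ) ^ (-(1 / 4) : ℝ)) := by
          apply mul_le_mul_of_nonneg_left _ hB
          have := sum_rpow_Ioc (a := 1 / 4) (by norm_num) hM hMN
          have h5 : (0:ℝ) ≤ (N : ℝ) ^ (-(1 / 4) : ℝ) := by positivity
          have h6 : ((M : ℝ) ^ (-(1 / 4) : ℝ) - (N : ℝ) ^ (-(1 / 4) : ℝ)) / (1 / 4) =
            4 * (M : ℝ) ^ (-(1 / 4) : ℝ) - 4 * (N : ℝ) ^ (-(1 / 4) : ℝ) := by ring
          linarith
  have h4 := S_div hB hS (le_trans hM hMN)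
  have h5 := S_div hB hS hM
  have h6 : (N : ℝ) ^ (-(1 / 4) : ℝ) ≤ (M : ℝ) ^ (-(1 / 4) : ℝ) := rpow_neg_le (by norm_num) hM hMN
  have h7 := mul_le_mul_of_nonneg_left h6 hB
  rw [h2]
  have h8 := abs_add_le (S f N * (1 / ((N + 1 : ℕ) : ℝ)) - S f M * (1 / ((M + 1 : ℕ) : ℝ)))
    (∑ n ∈ Ioc M N, S f n * (1 / (n : ℝ) - 1 / ((n + 1 : ℕ) : ℝ)))
  have h9 := abs_sub (S f N * (1 / ((N + 1 : ℕ) : ℝ))) (S f M * (1 / ((M + 1 : ℕ) : ℝ)))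
  linarith

lemma tendsto_rpow_neg_nat {a : ℝ} (ha : 0 < a) :
    Tendsto (fun n : ℕ => (n : ℝ) ^ (-a)) atTop (𝓝 0) :=
  (tendsto_rpow_neg_atTop ha).comp tendsto_natCast_atTop_atTop

/-- `∑_{n ≤ N} f(n)/n = L + O(N^{-1/4})`. -/
theorem T_lim {f : ℕ → ℝ} {B : ℝ} (hB : 0 ≤ B)
    (hS : ∀ n : ℕ, |S f n| ≤ B * (n : ℝ) ^ (3 / 4 : ℝ)) :
    ∃ L : ℝ, ∀ n : ℕ, 1 ≤ n → |T f n - L| ≤ 6 * B * (n : ℝ) ^ (-(1 / 4) : ℝ) := by
  have hc : CauchySeq (fun n => T f (n + 1)) := by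
    apply cauchySeq_of_le_tendsto_0 (fun N => 12 * B * ((N + 1 : ℕ) : ℝ) ^ (-(1 / 4) : ℝ))
    · intro n m N hn hm
      have h1 := T_cauchy hB hS (M := N + 1) (N := n + 1) (by omega) (by omega)
      have h2 := T_cauchy hB hS (M := N + 1) (N := m + 1) (by omega) (by omega)
      rw [Real.dist_eq]
      have h3 : T f (n + 1) - T f (m + 1) = (T f (n + 1) - T f (N + 1)) - (T f (m + 1) - T f (N + 1)) := by
        ring
      rw [h3]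
      have h4 := abs_sub (T f (n + 1) - T f (N + 1)) (T f (m + 1) - T f (N + 1))
      linarith
    · have h := (tendsto_rpow_neg_nat (a := 1 / 4) (by norm_num)).comp (tendsto_add_atTop_nat 1)
      have h2 := h.const_mul (12 * B)
      simpa using h2
  obtain ⟨L, hL⟩ := cauchySeq_tendsto_of_complete hc
  refine ⟨L, fun n hn => ?_⟩
  have hL' : Tendsto (fun n => T f n) atTop (𝓝 L) := (tendsto_add_atTop_iff_nat 1).1 hL
  have h1 : Tendsto (fun N => |T f N - T f n|) atTop (𝓝 |L - T f n|) :=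
    (hL'.sub_const _).abs
  have h2 : |L - T f n| ≤ 6 * B * (n : ℝ) ^ (-(1 / 4) : ℝ) := by
    apply le_of_tendsto h1
    filter_upwards [eventually_ge_atTop n] with N hN
    exact T_cauchy hB hS hn hN
  rwa [abs_sub_comm] at h2

lemma S_div_eq_T (f : ℕ → ℝ) (N : ℕ) : S (fun n => f n / n) N = T f N := rfl

/-- Abel summation against `f(n)/n`, in terms of the remainder `T - L`. -/
lemma abelR (f g : ℕ → ℝ) (L : ℝ) (N : ℕ) :
    ∑ n ∈ Icc 1 N, f n / n * g n = L * g 1 + (T f N - L) * g (N + 1) +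
      ∑ n ∈ Icc 1 N, (T f n - L) * (g n - g (n + 1)) := by
  induction N with
  | zero => simp
  | succ N ih =>
    rw [Finset.sum_Icc_succ_top (by omega), Finset.sum_Icc_succ_top (by omega), ih, T_succ]
    ring

lemma log_succ_sub {n : ℕ} (hn : 1 ≤ n) :
    |Real.log n - Real.log ((n + 1 : ℕ) : ℝ)| ≤ 1 / (n : ℝ) := by
  have hn0 : (0 : ℝ) < n := by exact_mod_cast hn
  have h1 : Real.log n ≤ Real.log ((n + 1 : ℕ) : ℝ) :=
    Real.log_le_log hn0 (by push_cast; linarith)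
  rw [abs_of_nonpos (by linarith)]
  have h2 : Real.log ((n + 1 : ℕ) : ℝ) - Real.log n = Real.log (((n + 1 : ℕ) : ℝ) / n) := by
    rw [Real.log_div (by positivity) (by positivity)]
  have h3 := Real.log_le_sub_one_of_pos (x := ((n + 1 : ℕ) : ℝ) / n) (by positivity)
  have h4 : ((n + 1 : ℕ) : ℝ) / n - 1 = 1 / n := by field_simp; push_cast; ring
  linarith

lemma pow14 {n : ℕ} (hn : 1 ≤ n) :
    (n : ℝ) ^ (-(1 / 4) : ℝ) * (1 / (n : ℝ)) = (n : ℝ) ^ (-1 - (1 / 4) : ℝ) := by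
  have hn0 : (0 : ℝ) < n := by exact_mod_cast hn
  rw [show (1 : ℝ) / (n : ℝ) = (n : ℝ) ^ (-1 : ℝ) by rw [Real.rpow_neg_one, one_div],
    ← Real.rpow_add hn0]
  norm_num

/-- `∑ f(n) log n / n` is bounded. -/
theorem sum_log_bdd {f : ℕ → ℝ} {D L : ℝ} (hD : 0 ≤ D)
    (hT : ∀ n : ℕ, 1 ≤ n → |T f n - L| ≤ D * (n : ℝ) ^ (-(1 / 4) : ℝ)) (N : ℕ) :
    |∑ n ∈ Icc 1 N, f n / n * Real.log n| ≤ 13 * D := by
  rcases Nat.eq_zero_or_pos N with rfl | hN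
  · simp; exact hD
  rw [abelR f (fun n => Real.log n) L N]
  have hN0 : (0 : ℝ) < N := by exact_mod_cast hN
  have h1 : |(T f N - L) * Real.log ((N + 1 : ℕ) : ℝ)| ≤ 8 * D := by
    rw [abs_mul]
    have h2 : Real.log ((N + 1 : ℕ) : ℝ) ≤ 8 * (N : ℝ) ^ (1 / 4 : ℝ) := by
      have h3 : Real.log ((N + 1 : ℕ) : ℝ) ≤ ((N + 1 : ℕ) : ℝ) ^ (1 / 4 : ℝ) / (1 / 4) :=
        Real.log_le_rpow_div (by positivity) (by norm_num)
      have h4 : ((N + 1 : ℕ) : ℝ) ^ (1 / 4 : ℝ) ≤ (2 * N : ℝ) ^ (1 / 4 : ℝ) := by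
        apply Real.rpow_le_rpow (by positivity) _ (by norm_num)
        have : (1 : ℝ) ≤ N := by exact_mod_cast hN
        push_cast; linarith
      have h5 : (2 * N : ℝ) ^ (1 / 4 : ℝ) = 2 ^ (1 / 4 : ℝ) * (N : ℝ) ^ (1 / 4 : ℝ) :=
        Real.mul_rpow (by norm_num) hN0.le
      have h6 : (2 : ℝ) ^ (1 / 4 : ℝ) ≤ 2 := by
        calc (2 : ℝ) ^ (1 / 4 : ℝ) ≤ 2 ^ (1 : ℝ) :=
              Real.rpow_le_rpow_of_exponent_le (by norm_num) (by norm_num)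
          _ = 2 := by norm_num
      have h7 : (0 : ℝ) ≤ (N : ℝ) ^ (1 / 4 : ℝ) := by positivity
      nlinarith
    have h3 : |Real.log ((N + 1 : ℕ) : ℝ)| = Real.log ((N + 1 : ℕ) : ℝ) :=
      abs_of_nonneg (Real.log_nonneg (by push_cast; linarith))
    rw [h3]
    calc |T f N - L| * Real.log ((N + 1 : ℕ) : ℝ)
        ≤ (D * (N : ℝ) ^ (-(1 / 4) : ℝ)) * (8 * (N : ℝ) ^ (1 / 4 : ℝ)) := by
          apply mul_le_mul (hT N hN) h2 (Real.log_nonneg (by push_cast; linarith)) (by positivity)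
      _ = 8 * D * ((N : ℝ) ^ (-(1 / 4) : ℝ) * (N : ℝ) ^ (1 / 4 : ℝ)) := by ring
      _ = 8 * D := by rw [← Real.rpow_add hN0]; norm_num
  have h2 : |∑ n ∈ Icc 1 N, (T f n - L) * (Real.log n - Real.log ((n + 1 : ℕ) : ℝ))| ≤ 5 * D := by
    calc |∑ n ∈ Icc 1 N, (T f n - L) * (Real.log n - Real.log ((n + 1 : ℕ) : ℝ))|
        ≤ ∑ n ∈ Icc 1 N, |(T f n - L) * (Real.log n - Real.log ((n + 1 : ℕ) : ℝ))| :=
          Finset.abs_sum_le_sum_abs _ _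
      _ ≤ ∑ n ∈ Icc 1 N, D * (n : ℝ) ^ (-1 - (1 / 4) : ℝ) := by
          apply Finset.sum_le_sum
          intro n hn
          have hn1 : 1 ≤ n := (Finset.mem_Icc.1 hn).1
          rw [abs_mul, ← pow14 hn1, ← mul_assoc]
          exact mul_le_mul (hT n hn1) (log_succ_sub hn1) (abs_nonneg _) (by positivity)
      _ = D * ∑ n ∈ Icc 1 N, (n : ℝ) ^ (-1 - (1 / 4) : ℝ) := by rw [Finset.mul_sum]
      _ ≤ D * 5 := by
          apply mul_le_mul_of_nonneg_left _ hD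
          have := sum_rpow_Icc (a := 1 / 4) (by norm_num) N
          norm_num at this ⊢; linarith
      _ = 5 * D := by ring
  have h3 : L * Real.log ((1 : ℕ) : ℝ) = 0 := by simp
  have h4 := abs_add_le ((T f N - L) * Real.log ((N + 1 : ℕ) : ℝ))
    (∑ n ∈ Icc 1 N, (T f n - L) * (Real.log n - Real.log ((n + 1 : ℕ) : ℝ)))
  simp only [h3, zero_add]
  linarith

/-- `∑_{n ≤ N} f(n) n^{-1-η} = L + O(N^{-1/4} + η)`. -/
theorem sum_eta {f : ℕ → ℝ} {D L : ℝ} (hD : 0 ≤ D)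
    (hT : ∀ n : ℕ, 1 ≤ n → |T f n - L| ≤ D * (n : ℝ) ^ (-(1 / 4) : ℝ)) {η : ℝ} (hη : 0 ≤ η)
    {N : ℕ} (hN : 1 ≤ N) :
    |∑ n ∈ Icc 1 N, f n / n * (n : ℝ) ^ (-η) - L| ≤ D * (N : ℝ) ^ (-(1 / 4) : ℝ) + 5 * D * η := by
  rw [abelR f (fun n => (n : ℝ) ^ (-η)) L N]
  have hN0 : (0 : ℝ) < N := by exact_mod_cast hN
  have h0 : L * (((1 : ℕ) : ℝ) ^ (-η)) = L := by simp
  have h1 : |(T f N - L) * ((N + 1 : ℕ) : ℝ) ^ (-η)| ≤ D * (N : ℝ) ^ (-(1 / 4) : ℝ) := by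
    rw [abs_mul]
    have h2 : |((N + 1 : ℕ) : ℝ) ^ (-η)| ≤ 1 := by
      rw [abs_of_nonneg (by positivity)]
      apply Real.rpow_le_one_of_one_le_of_nonpos (by push_cast; linarith) (by linarith)
    calc |T f N - L| * |((N + 1 : ℕ) : ℝ) ^ (-η)| ≤ (D * (N : ℝ) ^ (-(1 / 4) : ℝ)) * 1 :=
          mul_le_mul (hT N hN) h2 (abs_nonneg _) (by positivity)
      _ = _ := by ring
  have h2 : |∑ n ∈ Icc 1 N, (T f n - L) * ((n : ℝ) ^ (-η) - ((n + 1 : ℕ) : ℝ) ^ (-η))| ≤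
      5 * D * η := by
    calc |∑ n ∈ Icc 1 N, (T f n - L) * ((n : ℝ) ^ (-η) - ((n + 1 : ℕ) : ℝ) ^ (-η))|
        ≤ ∑ n ∈ Icc 1 N, |(T f n - L) * ((n : ℝ) ^ (-η) - ((n + 1 : ℕ) : ℝ) ^ (-η))| :=
          Finset.abs_sum_le_sum_abs _ _
      _ ≤ ∑ n ∈ Icc 1 N, (D * η) * (n : ℝ) ^ (-1 - (1 / 4) : ℝ) := by
          apply Finset.sum_le_sum
          intro n hn
          have hn1 : 1 ≤ n := (Finset.mem_Icc.1 hn).1
          have hn0 : (0 : ℝ) < n := by exact_mod_cast hn1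
          have h5 := rpow_tele_upper hη hn1
          have h6 : ((n + 1 : ℕ) : ℝ) ^ (-η) ≤ (n : ℝ) ^ (-η) := rpow_neg_le hη hn1 (by omega)
          have h7 : |(n : ℝ) ^ (-η) - ((n + 1 : ℕ) : ℝ) ^ (-η)| ≤ η * (1 / n) := by
            rw [abs_of_nonneg (by linarith)]
            refine h5.trans (mul_le_mul_of_nonneg_left ?_ hη)
            rw [one_div, ← Real.rpow_neg_one]
            exact Real.rpow_le_rpow_of_exponent_le (by exact_mod_cast hn1) (by linarith)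
          rw [abs_mul, ← pow14 hn1]
          calc |T f n - L| * |(n : ℝ) ^ (-η) - ((n + 1 : ℕ) : ℝ) ^ (-η)|
              ≤ (D * (n : ℝ) ^ (-(1 / 4) : ℝ)) * (η * (1 / n)) :=
                mul_le_mul (hT n hn1) h7 (abs_nonneg _) (by positivity)
            _ = _ := by ring
      _ = (D * η) * ∑ n ∈ Icc 1 N, (n : ℝ) ^ (-1 - (1 / 4) : ℝ) := by rw [Finset.mul_sum]
      _ ≤ (D * η) * 5 := by
          apply mul_le_mul_of_nonneg_left _ (by positivity)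
          have := sum_rpow_Icc (a := 1 / 4) (by norm_num) N
          norm_num at this ⊢; linarith
      _ = 5 * D * η := by ring
  have h4 := abs_add_le ((T f N - L) * ((N + 1 : ℕ) : ℝ) ^ (-η))
    (∑ n ∈ Icc 1 N, (T f n - L) * ((n : ℝ) ^ (-η) - ((n + 1 : ℕ) : ℝ) ^ (-η)))
  simp only [h0]
  have h5 : L + (T f N - L) * ((N + 1 : ℕ) : ℝ) ^ (-η) +
      ∑ n ∈ Icc 1 N, (T f n - L) * ((n : ℝ) ^ (-η) - ((n + 1 : ℕ) : ℝ) ^ (-η)) - L =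
      (T f N - L) * ((N + 1 : ℕ) : ℝ) ^ (-η) +
      ∑ n ∈ Icc 1 N, (T f n - L) * ((n : ℝ) ^ (-η) - ((n + 1 : ℕ) : ℝ) ^ (-η)) := by ring
  rw [h5]
  linarith

end P004E.H185
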